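import Vale.Agent.P125.Good

/-! Block averaging invariance and an approximate eigenvector of the shift. -/

namespace Vale.Agent.P125

open Finset Filter Topology

noncomputable section

/-- Sum over blocks of length `t`. -/
def blkSum (t : ℕ) : V →ₗ[ℝ] V := ∑ r ∈ range t, md (fun i => i * t + r)

/-- Average over blocks of length `t`. -/
def blk (t : ℕ) : V →ₗ[ℝ] V := (1 / (t : ℝ)) • blkSum t

theorem blkSum_apply (t : ℕ) (v : V) :
    blkSum t v = ∑ r ∈ range t, md (fun i => i * t + r) v := by
  unfold blkSum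
  rw [LinearMap.sum_apply]

theorem blk_apply (t : ℕ) (v : V) : blk t v = (1 / (t : ℝ)) • blkSum t v := rfl

theorem blkSum_zero {t H : ℕ} {v : V} (hv : ∀ i, H ≤ i → v i = 0) :
    ∀ j, H * t ≤ j → blkSum t v j = 0 := by
  intro j hj
  rw [blkSum_apply, Finsupp.finsetSum_apply]
  refine Finset.sum_eq_zero (fun r hr => md_zero hv (fun i hi => ?_) j hj)
  have := Finset.mem_range.mp hr
  nlinarith

theorem Good.blk_le {p C δ : ℝ} {N : Seminorm ℝ V} (h : Good p C δ N) {t : ℕ} (ht : 0 < t)
    (v : V) : N (blk t v) ≤ N v := by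
  have ht' : (0 : ℝ) < t := by exact_mod_cast ht
  rw [blk_apply, map_smul_eq_mul, blkSum_apply, Real.norm_eq_abs, abs_of_pos (by positivity)]
  have h1 : N (∑ r ∈ range t, md (fun i => i * t + r) v) ≤ t * N v := by
    refine (semi_sum_le N _ _).trans (le_of_eq ?_)
    rw [Finset.sum_congr rfl (fun r _ => h.spread' (ψ := fun i => i * t + r)
      (fun a b hab => by simp only; nlinarith) v)]
    simp
  rw [one_div, inv_mul_le_iff₀ ht']
  exact h1

theorem lc_blk {t : ℕ} (ht : 0 < t) (φ φ' : ℕ → ℝ) (h : ∀ i, ∀ r < t, φ (i * t + r) = φ' i)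
    (v : V) : lc φ (blk t v) = lc φ' v := by
  have ht' : (t : ℝ) ≠ 0 := by exact_mod_cast ht.ne'
  rw [blk_apply, map_smul, blkSum_apply, map_sum]
  rw [Finset.sum_congr rfl (fun r hr => (lc_md φ _ v).trans
    (congrArg (fun f => lc f v) (funext (fun i => h i r (Finset.mem_range.mp hr)))))]
  simp only [Finset.sum_const, Finset.card_range, nsmul_eq_mul, smul_eq_mul]
  field_simp

theorem Good.blk {p C δ : ℝ} {N : Seminorm ℝ V} (h : Good p C δ N) {t : ℕ} (ht : 0 < t) :
    Good p C δ (N.comp (blk t)) where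
  cmt := cmt_comp h.cmt (P125.blk t).toAddMonoidHom
  unit i := (h.blk_le ht _).trans (h.unit i)
  james v hv k := by
    have h1 := h.james (P125.blk t v)
      (by rw [lc_blk ht (fun _ => 1) (fun _ => 1) (fun _ _ _ => rfl), hv]) (k * t)
    rw [lc_blk ht _ (fun i => if i < k then 1 else 0) (fun i r hr => by
      have : i * t + r < k * t ↔ i < k := by
        constructor
        · intro h2
          by_contra h3
          have : k * t ≤ i * t := Nat.mul_le_mul_right t (not_lt.mp h3)
          omega
        · intro h2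
          nlinarith
      simp only [this])] at h1
    exact h1
  spread H ψ hψ v hv := by
    show N (P125.blk t (md ψ v)) = N (P125.blk t v)
    have h1 : blkSum t (md ψ v) = md (fun q => ψ (q / t) * t + q % t) (blkSum t v) := by
      rw [blkSum_apply, blkSum_apply, map_sum]
      refine Finset.sum_congr rfl (fun r hr => ?_)
      have hr' := Finset.mem_range.mp hr
      rw [md_md, md_md]
      congr 2
      funext i
      have a1 : (i * t + r) / t = i := by
        rw [mul_comm, Nat.mul_add_div ht, Nat.div_eq_of_lt hr', add_zero]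
      have a2 : (i * t + r) % t = r := by
        rw [mul_comm, Nat.mul_add_mod, Nat.mod_eq_of_lt hr']
      rw [a1, a2]
    rw [blk_apply, blk_apply, map_smul_eq_mul, map_smul_eq_mul, h1]
    congr 1
    refine h.spread (H * t) _ ?_ _ (blkSum_zero hv)
    intro a ha b hb hab
    simp only [Set.mem_Iio] at ha hb
    have ha' : a / t < H := (Nat.div_lt_iff_lt_mul ht).mpr ha
    have hb' : b / t < H := (Nat.div_lt_iff_lt_mul ht).mpr hb
    have hle : a / t ≤ b / t := Nat.div_le_div_right hab.le
    have ea := Nat.div_add_mod a t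
    have eb := Nat.div_add_mod b t
    have ma := Nat.mod_lt a ht
    simp only
    rcases hle.eq_or_lt with he | hl
    · rw [he] at ea ⊢
      omega
    · have h3 := Nat.mul_le_mul_right t (Nat.succ_le_of_lt (hψ ha' hb' hl))
      rw [Nat.succ_mul] at h3
      omega

theorem exists_good_blk {p C δ : ℝ} (hp : 0 ≤ p) {N : Seminorm ℝ V} (h : Good p C δ N) {t : ℕ}
    (ht : 0 < t) : ∃ N', Good p C δ N' ∧ ∀ v, N' (blk t v) = N' v := by
  let Ns : ℕ → Seminorm ℝ V := fun j => N.comp (blk t ^ j)
  have hs : ∀ j v, Ns (j + 1) v = Ns j (blk t v) := by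
    intro j v
    show N ((blk t ^ (j + 1)) v) = N ((blk t ^ j) (blk t v))
    rw [pow_succ, Module.End.mul_apply]
  have hg : ∀ j, Good p C δ (Ns j) := by
    intro j
    induction j with
    | zero =>
      have : Ns 0 = N := by
        ext v
        show N ((blk t ^ 0) v) = N v
        rw [pow_zero, Module.End.one_apply]
      rw [this]; exact h
    | succ j ih =>
      have : Ns (j + 1) = (Ns j).comp (blk t) := by
        ext v
        exact hs j v
      rw [this]; exact ih.blk ht
  have hl : ∀ v, Tendsto (fun j => Ns j v) atTop (𝓝 (⨅ j, Ns j v)) := by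
    intro v
    refine tendsto_atTop_ciInf (antitone_nat_of_succ_le (fun j => ?_))
      ⟨0, by rintro _ ⟨j, rfl⟩; exact apply_nonneg _ _⟩
    rw [hs]
    exact (hg j).blk_le ht v
  let N' := limSemi atTop Ns (fun v => ⨅ j, Ns j v) hl
  have hl' : ∀ v, Tendsto (fun j => Ns j v) atTop (𝓝 (N' v)) := hl
  refine ⟨N', good_limit hp atTop Ns N' hl' hg, fun v => ?_⟩
  have h1 := (hl' v).comp (tendsto_add_atTop_nat 1)
  have h2 : (fun j => Ns j v) ∘ (fun j => j + 1) = fun j => Ns j (blk t v) := by
    funext j
    exact hs j v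
  rw [h2] at h1
  exact tendsto_nhds_unique (hl' _) h1

/-- Minus the shift. -/
def nsh : Module.End ℝ V := - md (fun i => i + 1)

theorem nsh_pow (m : ℕ) (v : V) : (nsh ^ m) v = (-1 : ℝ) ^ m • md (fun i => i + m) v := by
  induction m with
  | zero => simp [md_id]
  | succ m ih =>
    rw [pow_succ', Module.End.mul_apply, ih, map_smul]
    unfold nsh
    rw [LinearMap.neg_apply, md_md, pow_succ, mul_smul, neg_one_smul]
    rfl

theorem Good.nsh_pow {p C δ : ℝ} {N : Seminorm ℝ V} (h : Good p C δ N) (m : ℕ) (v : V) :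
    N ((nsh ^ m) v) = N v := by
  rw [P125.nsh_pow, map_smul_eq_mul, h.spread' (fun a b hab => by simpa using hab)]
  simp

theorem Good.coord {p C δ : ℝ} {N : Seminorm ℝ V} (h : Good p C δ N) (hδ : 0 ≤ δ) (v : V)
    (hv : lc (fun _ => 1) v = 0) (k : ℕ) :
    δ * |lc (fun i => if i = k then 1 else 0) v| ≤ 2 * N v := by
  have h1 := h.james v hv k
  have h2 := h.james v hv (k + 1)
  have h3 : lc (fun i => if i = k then 1 else 0) v =
      lc (fun i => if i < k + 1 then 1 else 0) v - lc (fun i => if i < k then 1 else 0) v := by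
    clear h1 h2 hv
    induction v using Finsupp.induction_linear with
    | zero => simp
    | add a b ha hb => rw [map_add, map_add, map_add, ha, hb]; ring
    | single i a =>
      rw [lc_single, lc_single, lc_single]
      split_ifs <;> first | omega | ring
  rw [h3]
  have h4 := abs_sub (lc (fun i => if i < k + 1 then 1 else 0) v)
    (lc (fun i => if i < k then 1 else 0) v)
  nlinarith [mul_le_mul_of_nonneg_left h4 hδ]

theorem Good.exists_eigen {p C δ : ℝ} {N : Seminorm ℝ V} (h : Good p C δ N) (hδ : 0 < δ)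
    {η : ℝ} (hη : 0 < η) : ∃ U : V, 0 < N U ∧ N (U - nsh U) ≤ η * N U := by
  by_contra hcon
  push Not at hcon
  have h0 : ∀ v, η * N v ≤ N (v - nsh v) := by
    intro v
    rcases (apply_nonneg N v).eq_or_lt with h1 | h1
    · rw [← h1, mul_zero]; exact apply_nonneg _ _
    · exact (hcon v h1).le
  have h1 : ∀ (R : ℕ) (v : V), η * N ((∑ i ∈ range R, nsh ^ i) v) ≤ 2 * N v := by
    intro R v
    refine (h0 _).trans ?_
    have e : (∑ i ∈ range R, nsh ^ i) v - nsh ((∑ i ∈ range R, nsh ^ i) v) = v - (nsh ^ R) v := by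
      have := congrArg (fun A : Module.End ℝ V => A v) (mul_neg_geom_sum nsh R)
      simpa [Module.End.mul_apply] using this
    rw [e]
    refine (map_sub_le_add N _ _).trans ?_
    rw [h.nsh_pow]; linarith
  obtain ⟨m, hm⟩ := exists_nat_gt (8 / (δ * η ^ 2))
  have hm0 : 0 < m := by
    have : (0 : ℝ) < m := lt_trans (by positivity) hm
    exact_mod_cast this
  set R := 2 * m with hR
  set a := (∑ i ∈ range R, nsh ^ i) (Finsupp.single 0 1 : V) with ha
  set U := (∑ i ∈ range R, nsh ^ i) a with hU
  have ha1 : η * N a ≤ 2 := (h1 R _).trans (by linarith [h.unit 0])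
  have hU1 : η * N U ≤ 2 * N a := h1 R a
  have hlc : ∀ (φ : ℕ → ℝ) (v : V), lc φ ((∑ i ∈ range R, nsh ^ i) v) =
      ∑ i ∈ range R, (-1 : ℝ) ^ i * lc (fun j => φ (j + i)) v := by
    intro φ v
    rw [LinearMap.sum_apply, map_sum]
    refine Finset.sum_congr rfl (fun i _ => ?_)
    rw [P125.nsh_pow, map_smul, lc_md, smul_eq_mul]
  have hta : lc (fun _ => 1) a = 0 := by
    rw [ha, hlc]
    simp only [lc_single, mul_one]
    rw [hR, neg_one_geom_sum, if_pos (even_two_mul m)]
  have htU : lc (fun _ => 1) U = 0 := by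
    rw [hU, hlc]
    simp [hta]
  have hc := h.coord hδ.le U htU (R - 1)
  have hval : |lc (fun i => if i = R - 1 then 1 else 0) U| = R := by
    rw [hU, hlc]
    have : ∀ i ∈ range R, (-1 : ℝ) ^ i * lc (fun j => if j + i = R - 1 then 1 else 0) a =
        (-1 : ℝ) ^ (R - 1) := by
      intro i hi
      have hi' := Finset.mem_range.mp hi
      rw [ha, hlc]
      simp only [lc_single, one_mul, zero_add]
      rw [Finset.sum_eq_single (R - 1 - i)]
      · rw [if_pos (by omega), mul_one, ← pow_add]
        congr 1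
        omega
      · intro b _ hb
        rw [if_neg (by omega), mul_zero]
      · intro hh
        exact absurd (Finset.mem_range.mpr (by omega)) hh
    rw [Finset.sum_congr rfl this]
    simp [abs_mul]
  rw [hval] at hc
  have hRm : (R : ℝ) = 2 * m := by rw [hR]; push_cast; ring
  rw [div_lt_iff₀ (by positivity)] at hm
  have e1 : η * (η * N U) ≤ 4 := by nlinarith
  have e2 : η ^ 2 * (δ * R) ≤ η ^ 2 * (2 * N U) := mul_le_mul_of_nonneg_left hc (by positivity)
  rw [hRm] at e2
  nlinarith [mul_pos hδ (pow_pos hη 2)]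

end

end Vale.Agent.P125
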