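import Vale.Agent.P125.Block

/-! The ballistic reversible chain modelled on a planar tree with many periods. -/

namespace Vale.Agent.P125

open Finset Filter Topology

noncomputable section

theorem strictMonoOn_of_succ {Ψ : ℕ → ℕ} {M : ℕ} (h : ∀ q, q + 1 < M → Ψ q < Ψ (q + 1)) :
    StrictMonoOn Ψ (Set.Iio M) := by
  intro a _ b hb hab
  simp only [Set.mem_Iio] at hb
  induction b, hab using Nat.le_induction with
  | base => exact h a hb
  | succ b _ ih => exact (ih (by omega)).trans (h b hb)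

theorem snake (t R c : ℕ) (ht : 0 < t) (a : ℕ → ℕ → ℕ)
    (h1 : ∀ r < t, ∀ i, i + 1 < R → a r i < a r (i + 1))
    (h2 : ∀ r, r + 1 < t → ∀ i < R, ((i + c) % 2 = 0 → a r i < a (r + 1) i) ∧
      ((i + c) % 2 = 1 → a (r + 1) i < a r i)) :
    ∃ Ψ : ℕ → ℕ, StrictMonoOn Ψ (Set.Iio (R * t)) ∧
      ∀ U : V, ∑ r ∈ range t, md (a r) U = md Ψ (blkSum t U) := by
  have hdm : ∀ i r, r < t → (i * t + r) / t = i ∧ (i * t + r) % t = r := by
    intro i r hr
    constructor
    · rw [mul_comm, Nat.mul_add_div ht, Nat.div_eq_of_lt hr, add_zero]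
    · rw [mul_comm, Nat.mul_add_mod, Nat.mod_eq_of_lt hr]
  refine ⟨fun q => a (if (q / t + c) % 2 = 0 then q % t else t - 1 - q % t) (q / t), ?_, ?_⟩
  · apply strictMonoOn_of_succ
    intro q hq
    obtain ⟨i, r, hr, rfl⟩ : ∃ i r, r < t ∧ q = i * t + r :=
      ⟨q / t, q % t, Nat.mod_lt q ht, by rw [mul_comm, Nat.div_add_mod]⟩
    have hi : i < R := by
      by_contra hc
      have := Nat.mul_le_mul_right t (not_lt.mp hc)
      omega
    rw [(hdm i r hr).1, (hdm i r hr).2]
    by_cases hr' : r + 1 < t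
    · rw [add_assoc, (hdm i (r + 1) hr').1, (hdm i (r + 1) hr').2]
      by_cases hp : (i + c) % 2 = 0
      · rw [if_pos hp, if_pos hp]
        exact (h2 r hr' i hi).1 hp
      · rw [if_neg hp, if_neg hp]
        have := (h2 (t - 1 - (r + 1)) (by omega) i hi).2 (by omega)
        rwa [show t - 1 - (r + 1) + 1 = t - 1 - r by omega] at this
    · have e : i * t + r + 1 = (i + 1) * t + 0 := by
        rw [Nat.succ_mul]; omega
      have hi' : i + 1 < R := by
        by_contra hc
        have := Nat.mul_le_mul_right t (not_lt.mp hc)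
        omega
      rw [e, (hdm (i + 1) 0 ht).1, (hdm (i + 1) 0 ht).2]
      by_cases hp : (i + c) % 2 = 0
      · rw [if_pos hp, if_neg (by omega), show t - 1 - 0 = r by omega]
        exact h1 r hr i hi'
      · rw [if_neg hp, if_pos (by omega), show t - 1 - r = 0 by omega]
        exact h1 0 ht i hi'
  · intro U
    induction U using Finsupp.induction_linear with
    | zero => simp
    | add u v hu hv => simp only [map_add, Finset.sum_add_distrib, hu, hv]
    | single i x =>
      rw [blkSum_apply, map_sum]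
      simp only [md_single]
      have e : ∀ r ∈ range t, (Finsupp.single (a (if ((i * t + r) / t + c) % 2 = 0 then
          (i * t + r) % t else t - 1 - (i * t + r) % t) ((i * t + r) / t)) x : V) =
          Finsupp.single (a (if (i + c) % 2 = 0 then r else t - 1 - r) i) x := by
        intro r hr
        rw [(hdm i r (Finset.mem_range.mp hr)).1, (hdm i r (Finset.mem_range.mp hr)).2]
      rw [Finset.sum_congr rfl e]
      by_cases hp : (i + c) % 2 = 0
      · simp only [hp, if_true]
      · simp only [hp, if_false]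
        exact (Finset.sum_range_reflect (fun r => Finsupp.single (a r i) x) t).symm

/-- Position of the `k`-th endpoint of the arcs of the `j`-th edge at a vertex of degree `d`. -/
def ppos (d j k : ℕ) : ℕ := 2 * d * (k / 2) + 2 * j + k % 2

theorem ppos_even (d j m : ℕ) : ppos d j (2 * m) = 2 * d * m + 2 * j := by
  unfold ppos
  rw [show 2 * m / 2 = m by omega, show 2 * m % 2 = 0 by omega, add_zero]

theorem ppos_odd (d j m : ℕ) : ppos d j (2 * m + 1) = 2 * d * m + 2 * j + 1 := by
  unfold ppos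
  rw [show (2 * m + 1) / 2 = m by omega, show (2 * m + 1) % 2 = 1 by omega]

theorem ppos_even' (d j m : ℕ) : ppos d j (2 * m + 1 + 1) = 2 * d * m + 2 * d + 2 * j := by
  rw [show 2 * m + 1 + 1 = 2 * (m + 1) by ring, ppos_even]; ring

theorem ppos_strictMono {d j : ℕ} (hj : j < d) : StrictMono (ppos d j) := by
  apply strictMono_nat_of_lt_succ
  intro k
  obtain ⟨m, rfl | rfl⟩ := Nat.even_or_odd' k
  · rw [ppos_even, ppos_odd]; omega
  · rw [ppos_even', ppos_odd]; omega

theorem ppos_lt {d j k H : ℕ} (hj : j < d) (hk : k ≤ H) : ppos d j k < 2 * d * (H / 2 + 1) := by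
  unfold ppos
  have : 2 * d * (k / 2) ≤ 2 * d * (H / 2) := Nat.mul_le_mul_left _ (Nat.div_le_div_right hk)
  rw [mul_add]
  omega

theorem ppos_up {d j j' k : ℕ} (h : j < j') (hj : j' < d) :
    ((k + 1) % 2 = 0 → ppos d j' k < ppos d j (k + 1)) ∧
    ((k + 1) % 2 = 1 → ppos d j (k + 1) < ppos d j' k) := by
  obtain ⟨m, rfl | rfl⟩ := Nat.even_or_odd' k
  · rw [ppos_even, ppos_odd]; omega
  · rw [ppos_even', ppos_odd]; omega

theorem ppos_down {d j j' k : ℕ} (h : j' < j) (hj : j < d) :
    (k % 2 = 0 → ppos d j' (k + 1) < ppos d j k) ∧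
    (k % 2 = 1 → ppos d j k < ppos d j' (k + 1)) := by
  obtain ⟨m, rfl | rfl⟩ := Nat.even_or_odd' k
  · rw [ppos_even, ppos_odd]; omega
  · rw [ppos_even', ppos_odd]; omega

/-- Index offsets along a path. -/
def offs (t : ℕ) (w : ℕ → ℕ) : ℕ → ℕ
  | 0 => t
  | r + 1 => if w (r + 1) < w r then offs t w r + 1 else offs t w r - 1

theorem offs_spec (t : ℕ) (w : ℕ → ℕ) (r : ℕ) (hr : r ≤ t) :
    t ≤ offs t w r + r ∧ offs t w r ≤ t + r ∧ (offs t w r + r) % 2 = t % 2 := by
  induction r with
  | zero => simp [offs]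
  | succ r ih =>
    have := ih (by omega)
    simp only [offs]
    split_ifs <;> omega

theorem offs_err {p C δ : ℝ} {N : Seminorm ℝ V} (h : Good p C δ N) (U : V) (t : ℕ) (w : ℕ → ℕ)
    (r : ℕ) (hr : r ≤ t) : N ((nsh ^ t) U - (nsh ^ offs t w r) U) ≤ r * N (U - nsh U) := by
  have key : ∀ m, N ((nsh ^ m) U - (nsh ^ (m + 1)) U) = N (U - nsh U) := by
    intro m
    rw [pow_succ, Module.End.mul_apply, ← map_sub, h.nsh_pow]
  induction r with
  | zero => simp [offs]
  | succ r ih =>
    have h1 := ih (by omega)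
    have h2 := offs_spec t w r (by omega)
    have h3 : N ((nsh ^ offs t w r) U - (nsh ^ offs t w (r + 1)) U) = N (U - nsh U) := by
      simp only [offs]
      split_ifs
      · exact key _
      · rw [map_sub_rev]
        have := key (offs t w r - 1)
        rwa [show offs t w r - 1 + 1 = offs t w r by omega] at this
    have h4 := map_add_le_add N ((nsh ^ t) U - (nsh ^ offs t w r) U)
      ((nsh ^ offs t w r) U - (nsh ^ offs t w (r + 1)) U)
    rw [sub_add_sub_cancel, h3] at h4
    push_cast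
    linarith

/-- The deterministic lower bound along a good path. -/
theorem path_bound {p C δ : ℝ} {N : Seminorm ℝ V} (h : Good p C δ N) {t R d : ℕ} (ht : 0 < t)
    (hblk : ∀ v, N (blk t v) = N v) (U : V) (hU : ∀ i, R ≤ i → U i = 0)
    (hUe : N (U - nsh U) ≤ 1 / (2 * t) * N U)
    (w : ℕ → ℕ) (hw : ∀ r, w r < d) (hw' : ∀ r, r + 1 < t → w r ≠ w (r + 1))
    (b : ℕ → ℕ) (hb1 : ∀ r, b r ≤ 1) (hb : ∀ r, b (r + 1) + b r = 1)
    (z : ℕ → ℕ → ℕ) (lab : ℕ → ℕ → ℕ)
    (hz : ∀ r < t, StrictMonoOn (z r) (Set.Iio (2 * d * ((R + 2 * t) / 2 + 1))))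
    (hl1 : ∀ r < t, ∀ k < R + 2 * t, lab r k = z r (ppos d (w r) (k + b r)))
    (hl2 : ∀ r, r + 1 < t → ∀ k < R + 2 * t, lab r k = z (r + 1) (ppos d (w r) (k + b (r + 1)))) :
    t / 2 * N U ≤ N (∑ r ∈ range t, (-1 : ℝ) ^ b r • md (lab r) (md (fun i => i + t) U)) := by
  have ht' : (0 : ℝ) < t := by exact_mod_cast ht
  have hbpar : ∀ r, (b r + r) % 2 = b 0 % 2 := by
    intro r
    induction r with
    | zero => rfl
    | succ r ih => have := hb r; omega
  have hlab : ∀ r < t, StrictMonoOn (lab r) (Set.Iio (R + 2 * t)) := by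
    intro r hr k hk k' hk' hkk
    simp only [Set.mem_Iio] at hk hk'
    rw [hl1 r hr k hk, hl1 r hr k' hk']
    have := hb1 r
    exact hz r hr (ppos_lt (hw r) (by omega)) (ppos_lt (hw r) (by omega))
      (ppos_strictMono (hw r) (by omega))
  obtain ⟨Ψ, hΨ1, hΨ2⟩ := snake t R (t + b 0) ht (fun r i => lab r (i + offs t w r))
    (fun r hr i hi => by
      have := offs_spec t w r hr.le
      exact hlab r hr (show i + offs t w r < R + 2 * t by omega)
        (show i + 1 + offs t w r < R + 2 * t by omega) (by omega))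
    (fun r hr i hi => by
      have o1 := offs_spec t w r (by omega)
      have o2 := offs_spec t w (r + 1) (by omega)
      have b1 := hb1 (r + 1)
      have b2 := hbpar (r + 1)
      have e1 := hl2 r hr (i + offs t w r) (by omega)
      have e2 := hl1 (r + 1) hr (i + offs t w (r + 1)) (by omega)
      have hm := hz (r + 1) hr
      have m1 : ppos d (w r) (i + offs t w r + b (r + 1)) ∈
          Set.Iio (2 * d * ((R + 2 * t) / 2 + 1)) := ppos_lt (hw r) (by omega)
      have m2 : ppos d (w (r + 1)) (i + offs t w (r + 1) + b (r + 1)) ∈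
          Set.Iio (2 * d * ((R + 2 * t) / 2 + 1)) := ppos_lt (hw (r + 1)) (by omega)
      rw [e1, e2, hm.lt_iff_lt m1 m2, hm.lt_iff_lt m2 m1]
      by_cases hlt : w (r + 1) < w r
      · have e3 : offs t w (r + 1) = offs t w r + 1 := by simp only [offs, hlt, if_true]
        have := ppos_up (k := i + offs t w r + b (r + 1)) hlt (hw r)
        rw [show i + offs t w (r + 1) + b (r + 1) = i + offs t w r + b (r + 1) + 1 by omega]
        exact ⟨fun hp => this.1 (by omega), fun hp => this.2 (by omega)⟩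
      · have e3 : offs t w (r + 1) = offs t w r - 1 := by simp only [offs, hlt, if_false]
        have hlt' : w r < w (r + 1) := lt_of_le_of_ne (not_lt.mp hlt) (hw' r hr)
        have := ppos_down (k := i + offs t w (r + 1) + b (r + 1)) hlt' (hw (r + 1))
        rw [show i + offs t w r + b (r + 1) = i + offs t w (r + 1) + b (r + 1) + 1 by omega]
        exact ⟨fun hp => this.1 (by omega), fun hp => this.2 (by omega)⟩)
  have hmain : N ((-1 : ℝ) ^ b 0 • ∑ r ∈ range t, md (fun i => lab r (i + offs t w r)) U) =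
      t * N U := by
    rw [hΨ2, map_smul_eq_mul, h.spread (R * t) Ψ hΨ1 _ (blkSum_zero hU)]
    have := hblk U
    rw [blk_apply, map_smul_eq_mul, Real.norm_eq_abs, abs_of_pos (by positivity)] at this
    rw [← this]
    simp only [norm_pow, norm_neg, norm_one, one_pow, one_mul]
    field_simp
  have herr : ∀ r ∈ range t, N ((-1 : ℝ) ^ b 0 • md (fun i => lab r (i + offs t w r)) U -
      (-1 : ℝ) ^ b r • md (lab r) (md (fun i => i + t) U)) ≤ 1 / 2 * N U := by
    intro r hr
    have hr' := Finset.mem_range.mp hr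
    have o1 := offs_spec t w r hr'.le
    have e : (-1 : ℝ) ^ b 0 • md (fun i => lab r (i + offs t w r)) U -
        (-1 : ℝ) ^ b r • md (lab r) (md (fun i => i + t) U) =
        (-(-1 : ℝ) ^ (b r + t)) • md (lab r) ((nsh ^ t) U - (nsh ^ offs t w r) U) := by
      rw [nsh_pow, nsh_pow, map_sub, map_smul, map_smul, md_md (lab r) (fun i => i + offs t w r),
        smul_sub, smul_smul, smul_smul]
      have s1 : -(-1 : ℝ) ^ (b r + t) * (-1) ^ t = -(-1) ^ b r := by
        rw [neg_mul, ← pow_add, add_assoc, ← two_mul, pow_add, pow_mul]; simp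
      have s2 : -(-1 : ℝ) ^ (b r + t) * (-1) ^ offs t w r = -(-1) ^ b 0 := by
        rw [neg_mul, ← pow_add, neg_one_pow_eq_pow_mod_two (b r + t + offs t w r),
          neg_one_pow_eq_pow_mod_two (b 0)]
        have := hbpar r
        rw [show (b r + t + offs t w r) % 2 = b 0 % 2 by omega]
      rw [s1, s2, neg_smul, neg_smul]
      abel
    rw [e, map_smul_eq_mul, h.spread (R + 2 * t) _ (hlab r hr')]
    · simp only [norm_pow, norm_neg, norm_one, one_pow, one_mul]
      refine (offs_err h U t w r hr'.le).trans ?_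
      have a1 : (r : ℝ) ≤ t := by exact_mod_cast hr'.le
      calc (r : ℝ) * N (U - nsh U) ≤ t * (1 / (2 * t) * N U) :=
            mul_le_mul a1 hUe (apply_nonneg _ _) ht'.le
        _ = 1 / 2 * N U := by field_simp
    · intro i hi
      rw [nsh_pow, nsh_pow, Finsupp.sub_apply, Finsupp.smul_apply, Finsupp.smul_apply,
        md_zero (H' := R + 2 * t) hU (fun j hj => by omega) i hi,
        md_zero (H' := R + 2 * t) hU (fun j hj => by omega) i hi]
      simp
  have h5 := (semi_sum_le N _ _).trans (Finset.sum_le_sum herr)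
  rw [Finset.sum_sub_distrib, ← Finset.smul_sum, Finset.sum_const, Finset.card_range,
    nsmul_eq_mul] at h5
  have h6 := map_add_le_add N
    ((-1 : ℝ) ^ b 0 • ∑ r ∈ range t, md (fun i => lab r (i + offs t w r)) U -
      ∑ r ∈ range t, (-1 : ℝ) ^ b r • md (lab r) (md (fun i => i + t) U))
    (∑ r ∈ range t, (-1 : ℝ) ^ b r • md (lab r) (md (fun i => i + t) U))
  rw [sub_add_cancel, hmain] at h6
  linarith

theorem pr_eq_coord {ι : Type} [Fintype ι] [DecidableEq ι] (d : ℕ) [NeZero d] {i j : ι}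
    (hij : i ≠ j) : pr (fun w : ι → Fin d => w i = w j) ≤ 1 / d := by
  have hd : (0 : ℝ) < d := by exact_mod_cast Nat.pos_of_ne_zero (NeZero.ne d)
  have h1 : pr (fun w : ι → Fin d => w i = w j) ≤
      ∑ a : Fin d, pr (fun w : ι → Fin d => ∀ k : Bool, w (if k then i else j) = a) := by
    apply pr_le_sum
    intro w hw
    refine ⟨w i, Finset.mem_univ _, fun k => ?_⟩
    cases k
    · exact hw.symm
    · rfl
  have h2 : ∀ a : Fin d, pr (fun u : Fin d => u = a) = 1 / d := by
    intro a
    rw [pr_eq_card, Fintype.card_fin, Finset.filter_eq' Finset.univ a]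
    simp
  have h3 : ∀ a : Fin d, pr (fun w : ι → Fin d => ∀ k : Bool, w (if k then i else j) = a) ≤
      1 / d * (1 / d) := by
    intro a
    have := pr_pi_inj (fun k : Bool => if k then i else j) (by
      intro k k' hk
      cases k <;> cases k' <;> simp_all [hij.symm]) (fun _ (u : Fin d) => u = a)
    simp only [h2, Fintype.prod_bool] at this
    exact this
  refine h1.trans ((Finset.sum_le_sum (fun a _ => h3 a)).trans (le_of_eq ?_))
  rw [Finset.sum_const, Finset.card_univ, Fintype.card_fin, nsmul_eq_mul]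
  field_simp

theorem not_good {p C δ : ℝ} (hp : 1 < p) (hδ : 0 < δ) {N0 : Seminorm ℝ V}
    (h0 : Good p C δ N0) : False := by
  classical
  have hp0 : 0 < p := by linarith
  -- choice of the time
  obtain ⟨t, ht, htC⟩ : ∃ t : ℕ, 0 < t ∧ C * t < 1 / 2 * ((t : ℝ) / 2) ^ p := by
    have h1 : Tendsto (fun t : ℕ => (t : ℝ) ^ (p - 1)) atTop atTop :=
      (tendsto_rpow_atTop (by linarith)).comp tendsto_natCast_atTop_atTop
    obtain ⟨t, h2, h3⟩ := ((h1.eventually_gt_atTop (2 * 2 ^ p * C)).and
      (eventually_gt_atTop 0)).exists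
    refine ⟨t, h3, ?_⟩
    have ht' : (0 : ℝ) < t := by exact_mod_cast h3
    have h4 : (0 : ℝ) < 2 ^ p := by positivity
    rw [Real.div_rpow ht'.le (by norm_num), Real.rpow_sub_one ht'.ne'] at *
    rw [lt_div_iff₀ ht'] at h2
    rw [← mul_div_assoc, lt_div_iff₀ h4]
    nlinarith
  have ht' : (0 : ℝ) < t := by exact_mod_cast ht
  obtain ⟨N, h, hblk⟩ := exists_good_blk hp0.le h0 ht
  obtain ⟨U, hU0, hUe⟩ := h.exists_eigen hδ (η := 1 / (2 * t)) (by positivity)
  obtain ⟨R, hU⟩ := exists_bound U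
  set d := 4 * t with hd
  have : NeZero d := ⟨by omega⟩
  set Np := 2 * d * ((R + 2 * t) / 2 + 1) with hNp
  obtain ⟨Ω, _, _, n, x, -, hx1, hx2⟩ := spread Np (1 / (12 * t)) (by positivity)
  choose T hT using fun j : Fin d => hx2 (R + 2 * t) (ppos d j) (fun k => ppos d j (k + 1))
    ((ppos_strictMono j.2).strictMonoOn _)
    (fun a _ b _ hab => ppos_strictMono j.2 (by omega))
    (fun r hr => ppos_lt j.2 hr.le) (fun r hr => ppos_lt j.2 hr)
  let τ : Fin d → Ω × Bool → Ω × Bool := fun j q =>
    if q.2 then ((T j).symm q.1, false) else (T j q.1, true)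
  let base : Fin d → Ω × Bool → Ω := fun j q => if q.2 then (T j).symm q.1 else q.1
  let G0 : Fin d → Ω → Prop := fun j s => StrictMonoOn (x s) (Set.Iio Np) ∧
    StrictMonoOn (x (T j s)) (Set.Iio Np) ∧
    ∀ r < R + 2 * t, x s (ppos d j r) = x (T j s) (ppos d j (r + 1))
  let c : Fin d → Ω × Bool → V := fun j q => if G0 j (base j q) then
    (-1 : ℝ) ^ q.2.toNat • md (fun k => x (base j q) (ppos d j k)) (md (fun i => i + t) U) else 0
  have hτ : ∀ j q, τ j (τ j q) = q := by
    rintro j ⟨s, _ | _⟩ <;> simp [τ]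
  have hbase : ∀ j q, base j (τ j q) = base j q := by
    rintro j ⟨s, _ | _⟩ <;> simp [τ, base]
  have hbt : ∀ j q, (τ j q).2.toNat + q.2.toNat = 1 := by
    rintro j ⟨s, _ | _⟩ <;> simp [τ]
  have hc : ∀ j q, c j (τ j q) = - c j q := by
    intro j q
    simp only [c, hbase]
    split_ifs
    · rcases q with ⟨s, _ | _⟩ <;> simp [τ]
    · simp
  have hG : ∀ j q, G0 j (base j q) → StrictMonoOn (x q.1) (Set.Iio Np) ∧
      ∀ k < R + 2 * t, x (base j q) (ppos d j k) = x q.1 (ppos d j (k + q.2.toNat)) := by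
    rintro j ⟨s, _ | _⟩ hq
    · simp only [base, G0] at hq ⊢
      exact ⟨hq.1, fun k _ => rfl⟩
    · simp only [base, G0, if_true, Equiv.apply_symm_apply] at hq ⊢
      exact ⟨hq.2.1, hq.2.2⟩
  have hmain := h.cmt (Ω × Bool) (Fin d) τ hτ c hc t ht
  -- one step
  have hup : ex (fun q => ex (fun j => N (c j q) ^ p)) ≤ N U ^ p := by
    refine le_trans (ex_mono (fun q => ex_mono (g := fun _ => N U ^ p) (fun j => ?_))) ?_
    · refine Real.rpow_le_rpow (apply_nonneg _ _) ?_ hp0.le
      simp only [c]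
      split_ifs with hq
      · rw [map_smul_eq_mul, h.spread (R + 2 * t) _ _ _
          (md_zero (H' := R + 2 * t) hU (fun j hj => by omega)),
          h.spread' (fun a b hab => by simpa using hab)]
        · simp
        · intro a ha b hb hab
          exact hq.1 (ppos_lt j.2 (le_of_lt ha)) (ppos_lt j.2 (le_of_lt hb))
            (ppos_strictMono j.2 hab)
      · rw [map_zero]; exact apply_nonneg _ _
    · rw [ex_const, ex_const]
  -- bad darts
  have hbad0 : ∀ j, pr (fun s => ¬ G0 j s) ≤ 1 / (4 * t) := by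
    intro j
    have a1 : pr (fun s => ¬ G0 j s) ≤ pr (fun s => ¬ StrictMonoOn (x s) (Set.Iio Np)) +
        pr (fun s => ¬ (StrictMonoOn (x (T j s)) (Set.Iio Np) ∧
          ∀ r < R + 2 * t, x s (ppos d j r) = x (T j s) (ppos d j (r + 1)))) := by
      apply pr_le_add
      intro s hs
      simp only [G0] at hs
      tauto
    have a2 : pr (fun s => ¬ (StrictMonoOn (x (T j s)) (Set.Iio Np) ∧
          ∀ r < R + 2 * t, x s (ppos d j r) = x (T j s) (ppos d j (r + 1)))) ≤
        pr (fun s => ¬ StrictMonoOn (x (T j s)) (Set.Iio Np)) +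
        pr (fun s => ¬ ∀ r < R + 2 * t, x s (ppos d j r) = x (T j s) (ppos d j (r + 1))) := by
      apply pr_le_add
      intro s hs
      tauto
    rw [pr_equiv (T j) (fun s => ¬ StrictMonoOn (x s) (Set.Iio Np))] at a2
    have a3 := hT j
    have a4 : (1 : ℝ) / (4 * t) = 1 / (12 * t) + 1 / (12 * t) + 1 / (12 * t) := by
      field_simp; norm_num
    linarith
  have hbad : ∀ j, pr (fun q => ¬ G0 j (base j q)) ≤ 1 / (4 * t) := by
    intro j
    unfold pr
    rw [ex_prod, ex_comm]
    refine le_trans (ex_mono (g := fun _ => 1 / (4 * (t : ℝ))) (fun b => ?_)) (by rw [ex_const])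
    cases b
    · exact hbad0 j
    · have := pr_equiv (T j).symm (fun s => ¬ G0 j s)
      exact le_of_eq_of_le this (hbad0 j)
  set A := ((t : ℝ) / 2 * N U) ^ p with hA
  have hA0 : 0 ≤ A := by positivity
  have hpt : ∀ (q : Ω × Bool) (w : Fin t → Fin d),
      A - A * ind (∃ r, r + 1 < t ∧ ext w r = ext w (r + 1)) -
        A * ∑ r ∈ range t, ind (¬ G0 (ext w r) (base (ext w r) (pos τ (ext w) q r))) ≤
      N (∑ r ∈ range t, c (ext w r) (pos τ (ext w) q r)) ^ p := by
    intro q w
    have n1 : 0 ≤ ∑ r ∈ range t, ind (¬ G0 (ext w r) (base (ext w r) (pos τ (ext w) q r))) :=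
      Finset.sum_nonneg (fun r _ => ind_nonneg _)
    have n2 : 0 ≤ N (∑ r ∈ range t, c (ext w r) (pos τ (ext w) q r)) ^ p := by positivity
    by_cases b1 : ∃ r, r + 1 < t ∧ ext w r = ext w (r + 1)
    · rw [ind_pos b1]
      nlinarith
    by_cases b2 : ∃ r ∈ range t, ¬ G0 (ext w r) (base (ext w r) (pos τ (ext w) q r))
    · obtain ⟨r, hr, hr'⟩ := b2
      have := Finset.single_le_sum
        (f := fun r => ind (¬ G0 (ext w r) (base (ext w r) (pos τ (ext w) q r))))
        (fun r _ => ind_nonneg _) hr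
      rw [ind_pos hr'] at this
      rw [ind_neg b1]
      nlinarith
    push Not at b1 b2
    have b3 : ∀ r < t, G0 (ext w r) (base (ext w r) (pos τ (ext w) q r)) :=
      fun r hr => b2 r (Finset.mem_range.mpr hr)
    have key := path_bound h (R := R) (d := d) ht hblk U hU hUe (fun r => (ext w r).val)
      (fun r => (ext w r).2) (fun r hr he => b1 r hr (Fin.ext he))
      (fun r => (pos τ (ext w) q r).2.toNat) (fun r => Bool.toNat_le _)
      (fun r => hbt _ _) (fun r => x (pos τ (ext w) q r).1)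
      (fun r k => x (base (ext w r) (pos τ (ext w) q r)) (ppos d (ext w r).val k))
      (fun r hr => (hG _ _ (b3 r hr)).1) (fun r hr => (hG _ _ (b3 r hr)).2)
      (fun r hr k hk => by
        have := b3 r (by omega)
        rw [← hbase] at this ⊢
        exact (hG _ _ this).2 k hk)
    have e : ∑ r ∈ range t, c (ext w r) (pos τ (ext w) q r) =
        ∑ r ∈ range t, (-1 : ℝ) ^ (pos τ (ext w) q r).2.toNat •
          md (fun k => x (base (ext w r) (pos τ (ext w) q r)) (ppos d (ext w r).val k))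
            (md (fun i => i + t) U) :=
      Finset.sum_congr rfl (fun r hr => if_pos (b2 r hr))
    rw [e]
    have := Real.rpow_le_rpow (by positivity) key hp0.le
    have n3 := mul_nonneg hA0 n1
    have n4 := mul_nonneg hA0 (ind_nonneg (∃ r, r + 1 < t ∧ ext w r = ext w (r + 1)))
    linarith
  have hback : pr (fun w : Fin t → Fin d => ∃ r, r + 1 < t ∧ ext w r = ext w (r + 1)) ≤ 1 / 4 := by
    have a1 : pr (fun w : Fin t → Fin d => ∃ r, r + 1 < t ∧ ext w r = ext w (r + 1)) ≤
        ∑ r ∈ range t, pr (fun w : Fin t → Fin d => r + 1 < t ∧ ext w r = ext w (r + 1)) := by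
      apply pr_le_sum
      rintro w ⟨r, hr, hr'⟩
      exact ⟨r, Finset.mem_range.mpr (by omega), hr, hr'⟩
    have a2 : ∀ r ∈ range t,
        pr (fun w : Fin t → Fin d => r + 1 < t ∧ ext w r = ext w (r + 1)) ≤ 1 / d := by
      intro r _
      by_cases hr : r + 1 < t
      · refine le_trans (pr_mono ?_) (pr_eq_coord d
          (i := (⟨r, by omega⟩ : Fin t)) (j := ⟨r + 1, hr⟩) (by simp))
        rintro w ⟨_, hw⟩
        simp only [ext, hr, dif_pos, (show r < t by omega)] at hw
        exact hw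
      · refine le_trans (pr_mono (B := fun _ => False) (fun w hw => hr hw.1)) ?_
        rw [pr_false]; positivity
    refine a1.trans ((Finset.sum_le_sum a2).trans (le_of_eq ?_))
    rw [Finset.sum_const, Finset.card_range, nsmul_eq_mul, hd]
    push_cast
    field_simp
  have hbadp : ex (fun q : Ω × Bool => ex (fun w : Fin t → Fin d =>
      ∑ r ∈ range t, ind (¬ G0 (ext w r) (base (ext w r) (pos τ (ext w) q r))))) ≤ 1 / 4 := by
    rw [ex_comm]
    refine le_trans (ex_mono (g := fun _ => (1 : ℝ) / 4) (fun w => ?_)) (by rw [ex_const])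
    rw [ex_sum]
    have a2 : ∀ r ∈ range t, ex (fun q : Ω × Bool =>
        ind (¬ G0 (ext w r) (base (ext w r) (pos τ (ext w) q r)))) ≤ 1 / (4 * t) := by
      intro r _
      have := pr_equiv (Equiv.ofBijective _ (pos_bijective τ hτ (ext w) r))
        (fun q => ¬ G0 (ext w r) (base (ext w r) q))
      exact le_of_eq_of_le this (hbad _)
    refine (Finset.sum_le_sum a2).trans (le_of_eq ?_)
    rw [Finset.sum_const, Finset.card_range, nsmul_eq_mul]
    field_simp
  have hlow := ex_mono (fun q => ex_mono (fun w => hpt q w))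
  simp only [ex_sub, ex_const, ex_mul_left] at hlow
  unfold pr at hback
  have hCt : 0 ≤ C * t ∨ C * t < 0 := le_or_gt _ _
  have hfin : A / 2 ≤ C * t * ex (fun q => ex (fun j => N (c j q) ^ p)) := by
    nlinarith [mul_le_mul_of_nonneg_left hback hA0, mul_le_mul_of_nonneg_left hbadp hA0]
  have hNU : 0 < N U ^ p := Real.rpow_pos_of_pos hU0 p
  have hAe : A = ((t : ℝ) / 2) ^ p * N U ^ p := Real.mul_rpow (by positivity) hU0.le
  have hApos : 0 < A := by rw [hAe]; positivity
  have hex0 : 0 ≤ ex (fun q => ex (fun j => N (c j q) ^ p)) :=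
    ex_nonneg (fun q => ex_nonneg (fun j => by positivity))
  rcases hCt with hCt | hCt
  · have := mul_le_mul_of_nonneg_left hup hCt
    have h7 := mul_lt_mul_of_pos_right htC hNU
    nlinarith
  · nlinarith [mul_nonneg (neg_nonneg.mpr hCt.le) hex0]

theorem not_jamesFamily {X : Type*} [NormedAddCommGroup X] [NormedSpace ℝ X] {p δ : ℝ}
    (hp : 1 < p) (hδ : 0 < δ) (h : HasMarkovType X p) : ¬ JamesFamily X δ := by
  intro hJ
  obtain ⟨C, -, hC⟩ := cmt_of_markov (by linarith) h
  obtain ⟨N, hN⟩ := exists_good hp.le hδ.le hC hJ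
  exact not_good hp hδ hN

end

end Vale.Agent.P125
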