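import Vale.Agent.P125.Enflo

/-! Uniformly convex and uniformly smooth renormings of spaces with nontrivial Markov type. -/

namespace Vale.Agent.P125

open Finset Filter Topology

noncomputable section

variable {X : Type*} [NormedAddCommGroup X] [NormedSpace ℝ X]

theorem exists_uc {p : ℝ} (hp : 1 < p) (h : HasMarkovType X p) :
    ∃ N : Seminorm ℝ X, IsEquivalentNorm N ∧ IsUniformlyConvex N := by
  obtain ⟨N, h1, h2⟩ := enflo (E := X) (fun ε hε => by
    by_contra hc
    push Not at hc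
    exact not_jamesFamily hp (by positivity : 0 < ε / 8) h (james_of_tree hε hc))
  refine ⟨N, ⟨1, 2, one_pos, two_pos, fun x => by simpa using h1 x⟩, fun ε hε _ => ?_⟩
  obtain ⟨δ, hδ, h3⟩ := h2 (ε / 2) (half_pos hε)
  exact ⟨δ, hδ, fun x y hx hy hxy => h3 x y hx hy (by linarith [(h1 (x - y)).2])⟩

theorem smooth_of_eps (M : Seminorm ℝ X)
    (h : ∀ ε : ℝ, 0 < ε → ∃ τ0 : ℝ, 0 < τ0 ∧ ∀ τ, 0 < τ → τ < τ0 → ∀ x y, M x = 1 → M y = 1 →
      M (x + τ • y) + M (x - τ • y) ≤ 2 + 2 * ε * τ) : IsUniformlySmooth M := by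
  unfold IsUniformlySmooth
  rw [Metric.tendsto_nhdsWithin_nhds]
  intro ε hε
  obtain ⟨τ0, h0, h1⟩ := h (ε / 2) (half_pos hε)
  refine ⟨τ0, h0, fun τ hτ hd => ?_⟩
  have hτ' : 0 < τ := hτ
  rw [Real.dist_eq, sub_zero, abs_of_pos hτ'] at hd
  have a1 : 0 ≤ smoothnessModulus M τ := by
    apply Real.sSup_nonneg
    rintro r ⟨x, y, hx, hy, rfl⟩
    have := map_add_le_add M (x + τ • y) (x - τ • y)
    rw [show x + τ • y + (x - τ • y) = (2 : ℝ) • x by module, map_smul_eq_mul, hx] at this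
    norm_num at this
    linarith
  have a2 : smoothnessModulus M τ ≤ ε / 2 * τ := by
    apply Real.sSup_le _ (by positivity)
    rintro r ⟨x, y, hx, hy, rfl⟩
    have := h1 τ hτ' hd x y hx hy
    linarith
  rw [Real.dist_eq, sub_zero, abs_of_nonneg (div_nonneg a1 hτ'.le), div_lt_iff₀ hτ']
  nlinarith

theorem exists_us {p : ℝ} (hp : 1 < p) (h : HasMarkovType X p) :
    ∃ N : Seminorm ℝ X, IsEquivalentNorm N ∧ IsUniformlySmooth N := by
  obtain ⟨N, h1, h2⟩ := enflo (E := StrongDual ℝ X) (fun ε hε => by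
    by_contra hc
    push Not at hc
    exact not_jamesFamily hp (by positivity : 0 < ε / 8) h (james_of_dual_tree hε hc))
  let D : X → Set ℝ := fun x => {s | ∃ f : StrongDual ℝ X, N f ≤ 1 ∧ f x = s}
  have hne : ∀ x, (D x).Nonempty := fun x => ⟨0, 0, by simp, by simp⟩
  have hub : ∀ x, ∀ s ∈ D x, s ≤ ‖x‖ := by
    rintro x s ⟨f, hf, rfl⟩
    have := f.le_opNorm x
    rw [Real.norm_eq_abs] at this
    exact (le_abs_self _).trans
      (this.trans (mul_le_of_le_one_left (norm_nonneg _) ((h1 f).1.trans hf)))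
  have hle : ∀ (f : StrongDual ℝ X) x, N f ≤ 1 → f x ≤ sSup (D x) := fun f x hf =>
    le_csSup ⟨‖x‖, hub x⟩ ⟨f, hf, rfl⟩
  have habs : ∀ (f : StrongDual ℝ X) x, N f ≤ 1 → |f x| ≤ sSup (D x) := by
    intro f x hf
    rw [abs_le]
    refine ⟨?_, hle f x hf⟩
    have := hle (-f) x (by rwa [map_neg_eq_map])
    rw [neg_apply] at this
    linarith
  let M : Seminorm ℝ X := Seminorm.ofSMulLE (fun x => sSup (D x))
    (le_antisymm (csSup_le (hne 0) (fun s hs => by simpa using hub 0 s hs))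
      (by simpa using hle 0 0 (by simp)))
    (fun x y => csSup_le (hne _) (by
      rintro s ⟨f, hf, rfl⟩
      rw [map_add]
      exact add_le_add (hle f x hf) (hle f y hf)))
    (fun r x => csSup_le (hne _) (by
      rintro s ⟨f, hf, rfl⟩
      rw [map_smul, smul_eq_mul, Real.norm_eq_abs]
      refine (le_abs_self _).trans ?_
      rw [abs_mul]
      exact mul_le_mul_of_nonneg_left (habs f x hf) (abs_nonneg r)))
  have hM : ∀ x, M x = sSup (D x) := fun _ => rfl
  have hgen : ∀ (f : StrongDual ℝ X) x, f x ≤ N f * M x := by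
    intro f x
    rcases (apply_nonneg N f).eq_or_lt with h0 | h0
    · have : f = 0 := norm_le_zero_iff.mp (h0 ▸ (h1 f).1)
      rw [this]; simp
    · have := hle ((N f)⁻¹ • f) x (by
        rw [map_smul_eq_mul, Real.norm_of_nonneg (inv_nonneg.mpr h0.le), inv_mul_cancel₀ h0.ne'])
      rw [smul_apply, smul_eq_mul, inv_mul_le_iff₀ h0] at this
      exact this
  refine ⟨M, ⟨1 / 2, 1, by norm_num, one_pos, fun x => ⟨?_, ?_⟩⟩, smooth_of_eps M ?_⟩
  · obtain ⟨g, hg1, hg2⟩ := exists_dual_vector'' ℝ x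
    have := hgen g x
    rw [hg2] at this
    simp only [RCLike.ofReal_real_eq_id, id] at this
    have a1 : N g ≤ 2 := by linarith [(h1 g).2]
    nlinarith [mul_le_mul_of_nonneg_right a1 (apply_nonneg M x)]
  · rw [one_mul, hM]
    exact csSup_le (hne x) (hub x)
  · intro ε hε
    obtain ⟨δ, hδ, h3⟩ := h2 ε hε
    refine ⟨δ, hδ, fun τ hτ hτ' x y hx hy => ?_⟩
    have key : ∀ f g : StrongDual ℝ X, N f ≤ 1 → N g ≤ 1 →
        f (x + τ • y) + g (x - τ • y) ≤ 2 + 2 * ε * τ := by
      intro f g hf hg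
      have e : f (x + τ • y) + g (x - τ • y) =
          2 * ((1 / 2 : ℝ) • (f + g)) x + τ * (f - g) y := by
        simp only [map_add, map_sub, map_smul, smul_eq_mul, smul_apply, add_apply, sub_apply]
        ring
      have a1 := hgen ((1 / 2 : ℝ) • (f + g)) x
      have a2 := hgen (f - g) y
      rw [hx, mul_one] at a1
      rw [hy, mul_one] at a2
      rw [e]
      by_cases hfg : ε ≤ ‖f - g‖
      · have a3 := h3 f g hf hg hfg
        have a4 : N (f - g) ≤ 2 := by linarith [map_sub_le_add N f g]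
        nlinarith [mul_pos hε hτ]
      · have a3 : N ((1 / 2 : ℝ) • (f + g)) ≤ 1 := by
          rw [map_smul_eq_mul, Real.norm_of_nonneg (by norm_num)]
          linarith [map_add_le_add N f g]
        have a4 : N (f - g) ≤ 2 * ε := by linarith [(h1 (f - g)).2, not_le.mp hfg]
        nlinarith
    rw [hM, hM]
    have : sSup (D (x + τ • y)) ≤ 2 + 2 * ε * τ - sSup (D (x - τ • y)) := by
      refine csSup_le (hne _) ?_
      rintro s ⟨f, hf, rfl⟩
      have : sSup (D (x - τ • y)) ≤ 2 + 2 * ε * τ - f (x + τ • y) := by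
        refine csSup_le (hne _) ?_
        rintro s ⟨g, hg, rfl⟩
        linarith [key f g hf hg]
      linarith
    linarith

end

end Vale.Agent.P125
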