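import Vale.Agent.P125.James

/-! Enflo's renorming theorem: no long separated trees gives an equivalent uniformly convex norm. -/

namespace Vale.Agent.P125

open Finset

noncomputable section

variable {E : Type*} [NormedAddCommGroup E] [NormedSpace ℝ E]

theorem IsTree.mono {ε : ℝ} {n : ℕ} {x : E} (h : IsTree ε (n + 1) x) : IsTree ε n x := by
  induction n generalizing x with
  | zero => exact h.norm_le
  | succ n ih =>
    obtain ⟨y, z, hy, hz, hx, hyz⟩ := h
    exact ⟨y, z, ih hy, ih hz, hx, hyz⟩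

theorem IsTree.mono' {ε : ℝ} {m n : ℕ} {x : E} (hmn : m ≤ n) (h : IsTree ε n x) :
    IsTree ε m x := by
  induction n, hmn using Nat.le_induction with
  | base => exact h
  | succ n _ ih => exact ih h.mono

theorem IsTree.neg {ε : ℝ} {n : ℕ} {x : E} (h : IsTree ε n x) : IsTree ε n (-x) := by
  induction n generalizing x with
  | zero =>
    show ‖-x‖ ≤ 2
    rw [norm_neg]; exact h
  | succ n ih =>
    obtain ⟨y, z, hy, hz, hx, hyz⟩ := h
    refine ⟨-y, -z, ih hy, ih hz, ?_, ?_⟩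
    · rw [hx, ← neg_add, smul_neg]
    · rw [neg_sub_neg, norm_sub_rev]; exact hyz

theorem exists_rank {ε : ℝ} {n : ℕ} (h : ∀ x : E, ¬ IsTree ε n x) :
    ∃ (ρ : E → ℝ) (g : ℝ), 0 < g ∧ (∀ x, 0 ≤ ρ x ∧ ρ x ≤ 1) ∧ (∀ x, ρ (-x) = ρ x) ∧
      ∀ x y, ‖x‖ ≤ 2 → ‖y‖ ≤ 2 → ε ≤ ‖x - y‖ →
        ρ ((1 / 2 : ℝ) • (x + y)) ≤ (ρ x + ρ y) / 2 - g := by
  classical
  let ht : E → ℕ := fun x => Nat.findGreatest (fun m => IsTree ε m x) n
  refine ⟨fun x => (1 / 3 : ℝ) ^ ht x, (1 / 3) ^ n / 3, by positivity,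
    fun x => ⟨by positivity, pow_le_one₀ (by norm_num) (by norm_num)⟩, fun x => ?_, ?_⟩
  · have : (fun m => IsTree ε m (-x)) = fun m => IsTree ε m x := by
      funext m
      exact propext ⟨fun h => by simpa using h.neg, fun h => h.neg⟩
    simp only [ht, this]
  · intro x y hx hy hxy
    have t1 : ∀ u : E, ‖u‖ ≤ 2 → IsTree ε (ht u) u := fun u hu =>
      Nat.findGreatest_spec (P := fun m => IsTree ε m u) (Nat.zero_le n) hu
    have t2 : ∀ u : E, ht u ≤ n := fun u => Nat.findGreatest_le n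
    have t3 : ht x < n := lt_of_le_of_ne (t2 x) (fun he => h x (he ▸ t1 x hx))
    have t4 : IsTree ε (min (ht x) (ht y) + 1) ((1 / 2 : ℝ) • (x + y)) :=
      ⟨x, y, (t1 x hx).mono' (min_le_left _ _), (t1 y hy).mono' (min_le_right _ _), rfl, hxy⟩
    have t5 : min (ht x) (ht y) + 1 ≤ ht ((1 / 2 : ℝ) • (x + y)) :=
      Nat.le_findGreatest (P := fun m => IsTree ε m ((1 / 2 : ℝ) • (x + y))) (by omega) t4
    have a1 : (1 / 3 : ℝ) ^ ht ((1 / 2 : ℝ) • (x + y)) ≤ (1 / 3) ^ (min (ht x) (ht y) + 1) :=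
      pow_le_pow_of_le_one (by norm_num) (by norm_num) t5
    have a2 : (1 / 3 : ℝ) ^ n ≤ (1 / 3) ^ ht x :=
      pow_le_pow_of_le_one (by norm_num) (by norm_num) (t2 x)
    have a3 : (1 / 3 : ℝ) ^ n ≤ (1 / 3) ^ ht y :=
      pow_le_pow_of_le_one (by norm_num) (by norm_num) (t2 y)
    have a4 : (0 : ℝ) < (1 / 3) ^ n := by positivity
    rw [pow_succ] at a1
    rcases min_choice (ht x) (ht y) with hm | hm <;> rw [hm] at a1 <;> simp only <;> linarith

theorem le_inf_comb {A B : Set ℝ} (hA : A.Nonempty) (hB : B.Nonempty) {a b L : ℝ} (ha : 0 ≤ a)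
    (hb : 0 ≤ b) (h : ∀ s ∈ A, ∀ s' ∈ B, L ≤ a * s + b * s') : L ≤ a * sInf A + b * sInf B := by
  refine le_of_forall_pos_le_add (fun η hη => ?_)
  have hη' : 0 < η / (a + b + 1) := by positivity
  obtain ⟨s, hs, hs'⟩ := exists_lt_of_csInf_lt hA (lt_add_of_pos_right (sInf A) hη')
  obtain ⟨u, hu, hu'⟩ := exists_lt_of_csInf_lt hB (lt_add_of_pos_right (sInf B) hη')
  have h1 := h s hs u hu
  have h2 : (a + b + 1) * (η / (a + b + 1)) = η := by field_simp
  nlinarith [mul_le_mul_of_nonneg_left hs'.le ha, mul_le_mul_of_nonneg_left hu'.le hb]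

/-- Values of convex combinations. -/
def envSet (ρ : E → ℝ) (x : E) : Set ℝ :=
  {s | ∃ (ι : Type) (_ : Fintype ι) (w : ι → ℝ) (z : ι → E), (∀ i, 0 ≤ w i) ∧ ∑ i, w i = 1 ∧
    (∀ i, ‖z i‖ ≤ 2) ∧ ∑ i, w i • z i = x ∧ ∑ i, w i * ρ (z i) = s}

theorem exists_envelope {ε g : ℝ} (hε : 0 < ε) (hg : 0 < g) (ρ : E → ℝ)
    (h01 : ∀ x, 0 ≤ ρ x ∧ ρ x ≤ 1) (hneg : ∀ x, ρ (-x) = ρ x)
    (hmid : ∀ x y, ‖x‖ ≤ 2 → ‖y‖ ≤ 2 → ε ≤ ‖x - y‖ →
      ρ ((1 / 2 : ℝ) • (x + y)) ≤ (ρ x + ρ y) / 2 - g) :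
    ∃ F : E → ℝ, (∀ x, ‖x‖ ≤ 2 → 0 ≤ F x ∧ F x ≤ 1) ∧ (∀ x, F (-x) = F x) ∧
      (∀ x y (a b : ℝ), ‖x‖ ≤ 2 → ‖y‖ ≤ 2 → 0 ≤ a → 0 ≤ b → a + b = 1 →
        F (a • x + b • y) ≤ a * F x + b * F y) ∧
      ∀ x y, ‖x‖ ≤ 2 → ‖y‖ ≤ 2 → 2 * ε ≤ ‖x - y‖ →
        F ((1 / 2 : ℝ) • (x + y)) ≤ (F x + F y) / 2 - g * ε / 4 := by
  classical
  have hlow : ∀ x, ∀ s ∈ envSet ρ x, 0 ≤ s := by
    rintro x s ⟨ι, _, w, z, h1, -, -, -, rfl⟩
    exact Finset.sum_nonneg (fun i _ => mul_nonneg (h1 i) (h01 _).1)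
  have hbdd : ∀ x, BddBelow (envSet ρ x) := fun x => ⟨0, hlow x⟩
  have hself : ∀ x, ‖x‖ ≤ 2 → ρ x ∈ envSet ρ x := fun x hx =>
    ⟨Unit, inferInstance, fun _ => 1, fun _ => x, fun _ => zero_le_one, by simp, fun _ => hx,
      by simp, by simp⟩
  have hsym : ∀ x, envSet ρ x ⊆ envSet ρ (-x) := by
    rintro x s ⟨ι, _, w, z, h1, h2, h3, h4, h5⟩
    refine ⟨ι, inferInstance, w, fun i => - z i, h1, h2, fun i => by rw [norm_neg]; exact h3 i,
      ?_, ?_⟩
    · simp only [smul_neg, Finset.sum_neg_distrib, h4]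
    · simp only [hneg, h5]
  refine ⟨fun x => sInf (envSet ρ x), fun x hx => ⟨le_csInf ⟨_, hself x hx⟩ (hlow x),
    (csInf_le (hbdd x) (hself x hx)).trans (h01 x).2⟩, fun x => ?_, ?_, ?_⟩
  · have : envSet ρ (-x) = envSet ρ x :=
      Set.Subset.antisymm (by simpa using hsym (-x)) (hsym x)
    simp only [this]
  · intro x y a b hx hy ha hb hab
    refine le_inf_comb ⟨_, hself x hx⟩ ⟨_, hself y hy⟩ ha hb ?_
    rintro s ⟨ι, _, w, z, h1, h2, h3, h4, h5⟩ s' ⟨ι', _, w', z', h1', h2', h3', h4', h5'⟩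
    refine csInf_le (hbdd _) ⟨ι ⊕ ι', inferInstance, Sum.elim (fun i => a * w i)
      (fun i => b * w' i), Sum.elim z z', ?_, ?_, ?_, ?_, ?_⟩
    · rintro (i | i)
      · exact mul_nonneg ha (h1 i)
      · exact mul_nonneg hb (h1' i)
    · simp only [Fintype.sum_sum_type, Sum.elim_inl, Sum.elim_inr, ← Finset.mul_sum, h2, h2']
      linarith
    · rintro (i | i)
      · exact h3 i
      · exact h3' i
    · simp only [Fintype.sum_sum_type, Sum.elim_inl, Sum.elim_inr, mul_smul, ← Finset.smul_sum,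
        h4, h4']
    · simp only [Fintype.sum_sum_type, Sum.elim_inl, Sum.elim_inr, mul_assoc, ← Finset.mul_sum,
        h5, h5']
  · intro x y hx hy hxy
    have key : sInf (envSet ρ ((1 / 2 : ℝ) • (x + y))) + g * ε / 4 ≤
        1 / 2 * sInf (envSet ρ x) + 1 / 2 * sInf (envSet ρ y) := by
      refine le_inf_comb ⟨_, hself x hx⟩ ⟨_, hself y hy⟩ (by norm_num) (by norm_num) ?_
      rintro s ⟨ι, _, w, z, h1, h2, h3, h4, h5⟩ s' ⟨ι', _, w', z', h1', h2', h3', h4', h5'⟩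
      let far : ι → ι' → Prop := fun i j => ε ≤ ‖z i - z' j‖
      let Z : (ι × ι') × Bool → E := fun q => if far q.1.1 q.1.2 then
        (1 / 2 : ℝ) • (z q.1.1 + z' q.1.2) else if q.2 then z q.1.1 else z' q.1.2
      let κ : ℝ := ∑ i, ∑ j, w i * w' j * (if far i j then 1 else 0)
      have e1 : ∀ f : ι → ℝ, ∑ i, ∑ j, w i * w' j * f i = ∑ i, w i * f i := by
        intro f
        refine Finset.sum_congr rfl (fun i _ => ?_)
        rw [← Finset.sum_mul, ← Finset.mul_sum, h2', mul_one]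
      have e2 : ∀ f : ι' → ℝ, ∑ i, ∑ j, w i * w' j * f j = ∑ j, w' j * f j := by
        intro f
        simp only [mul_assoc, ← Finset.mul_sum]
        rw [← Finset.sum_mul, h2, one_mul]
      have e3 : ∑ i, ∑ j, (w i * w' j) • z i = x := by
        rw [← h4]
        refine Finset.sum_congr rfl (fun i _ => ?_)
        rw [← Finset.sum_smul, ← Finset.mul_sum, h2', mul_one]
      have e4 : ∑ i, ∑ j, (w i * w' j) • z' j = y := by
        simp only [mul_smul, ← Finset.smul_sum]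
        rw [← Finset.sum_smul, h2, one_smul, h4']
      have hmem : ∑ q : (ι × ι') × Bool, w q.1.1 * w' q.1.2 / 2 * ρ (Z q) ∈
          envSet ρ ((1 / 2 : ℝ) • (x + y)) := by
        refine ⟨(ι × ι') × Bool, inferInstance, fun q => w q.1.1 * w' q.1.2 / 2, Z,
          fun q => by have := h1 q.1.1; have := h1' q.1.2; positivity, ?_, ?_, ?_, rfl⟩
        · simp only [Fintype.sum_prod_type, Fintype.sum_bool, add_halves]
          have := e1 (fun _ => 1)
          simp only [mul_one] at this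
          rw [this, h2]
        · intro q
          simp only [Z]
          split_ifs
          · exact norm_mid_le (h3 _) (h3' _)
          · exact h3 _
          · exact h3' _
        · simp only [Fintype.sum_prod_type, Fintype.sum_bool]
          rw [← e3, ← e4, ← Finset.sum_add_distrib, Finset.smul_sum]
          refine Finset.sum_congr rfl (fun i _ => ?_)
          rw [← Finset.sum_add_distrib, Finset.smul_sum]
          refine Finset.sum_congr rfl (fun j _ => ?_)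
          simp only [Z]
          split_ifs with hf h6 <;> first | contradiction | module
      have hval : ∑ q : (ι × ι') × Bool, w q.1.1 * w' q.1.2 / 2 * ρ (Z q) ≤
          1 / 2 * s + 1 / 2 * s' - g * κ := by
        rw [← h5, ← h5', ← e1 (fun i => ρ (z i)), ← e2 (fun j => ρ (z' j))]
        simp only [Fintype.sum_prod_type, Fintype.sum_bool, κ, Finset.mul_sum,
          ← Finset.sum_add_distrib, ← Finset.sum_sub_distrib]
        refine Finset.sum_le_sum (fun i _ => Finset.sum_le_sum (fun j _ => ?_))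
        have hw : 0 ≤ w i * w' j := mul_nonneg (h1 i) (h1' j)
        simp only [Z]
        by_cases hf : far i j
        · simp only [hf, if_true]
          have := mul_le_mul_of_nonneg_left (hmid _ _ (h3 i) (h3' j) hf) hw
          nlinarith
        · simp only [hf, if_false, if_true, Bool.false_eq_true]
          nlinarith
      have hκ : ε / 4 ≤ κ := by
        have a1 : x - y = ∑ i, ∑ j, (w i * w' j) • (z i - z' j) := by
          rw [← e3, ← e4, ← Finset.sum_sub_distrib]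
          refine Finset.sum_congr rfl (fun i _ => ?_)
          rw [← Finset.sum_sub_distrib]
          refine Finset.sum_congr rfl (fun j _ => ?_)
          rw [smul_sub]
        have a2 : ‖x - y‖ ≤ ∑ i, ∑ j, (w i * w' j * ε +
            4 * (w i * w' j * (if far i j then 1 else 0))) := by
          rw [a1]
          refine (norm_sum_le _ _).trans (Finset.sum_le_sum (fun i _ =>
            (norm_sum_le _ _).trans (Finset.sum_le_sum (fun j _ => ?_))))
          have hw : 0 ≤ w i * w' j := mul_nonneg (h1 i) (h1' j)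
          rw [norm_smul, Real.norm_eq_abs, abs_of_nonneg hw]
          by_cases hf : far i j
          · simp only [hf, if_true]
            have : ‖z i - z' j‖ ≤ 4 := by linarith [norm_sub_le (z i) (z' j), h3 i, h3' j]
            nlinarith [mul_le_mul_of_nonneg_left this hw, mul_nonneg hw hε.le]
          · simp only [hf, if_false]
            have : ‖z i - z' j‖ ≤ ε := (not_le.mp hf).le
            nlinarith [mul_le_mul_of_nonneg_left this hw]
        simp only [Finset.sum_add_distrib, ← Finset.mul_sum] at a2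
        rw [e1 (fun _ => ε), ← Finset.sum_mul, h2] at a2
        simp only [κ]
        linarith
      have := (csInf_le (hbdd _) hmem).trans hval
      nlinarith [mul_le_mul_of_nonneg_left hκ hg.le]
    simp only
    linarith

theorem exists_convex_fun (h : ∀ ε : ℝ, 0 < ε → ∃ n, ∀ x : E, ¬ IsTree ε n x) :
    ∃ G : E → ℝ, (∀ x, ‖x‖ ≤ 2 → ‖x‖ ≤ G x ∧ G x ≤ ‖x‖ + 1 / 4) ∧ (∀ x, G (-x) = G x) ∧
      (∀ x y (a b : ℝ), ‖x‖ ≤ 2 → ‖y‖ ≤ 2 → 0 ≤ a → 0 ≤ b → a + b = 1 →
        G (a • x + b • y) ≤ a * G x + b * G y) ∧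
      ∀ ε : ℝ, 0 < ε → ∃ γ : ℝ, 0 < γ ∧ ∀ x y, ‖x‖ ≤ 2 → ‖y‖ ≤ 2 → ε ≤ ‖x - y‖ →
        G ((1 / 2 : ℝ) • (x + y)) ≤ (G x + G y) / 2 - γ := by
  classical
  have h1 : ∀ k : ℕ, ∃ (F : E → ℝ) (γ : ℝ), 0 < γ ∧ (∀ x, ‖x‖ ≤ 2 → 0 ≤ F x ∧ F x ≤ 1) ∧
      (∀ x, F (-x) = F x) ∧
      (∀ x y (a b : ℝ), ‖x‖ ≤ 2 → ‖y‖ ≤ 2 → 0 ≤ a → 0 ≤ b → a + b = 1 →
        F (a • x + b • y) ≤ a * F x + b * F y) ∧
      ∀ x y, ‖x‖ ≤ 2 → ‖y‖ ≤ 2 → 2 * (1 / ((k : ℝ) + 1)) ≤ ‖x - y‖ →
        F ((1 / 2 : ℝ) • (x + y)) ≤ (F x + F y) / 2 - γ := by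
    intro k
    have hk : (0 : ℝ) < 1 / ((k : ℝ) + 1) := by positivity
    obtain ⟨n, hn⟩ := h _ hk
    obtain ⟨ρ, g, hg, a1, a2, a3⟩ := exists_rank hn
    obtain ⟨F, b1, b2, b3, b4⟩ := exists_envelope hk hg ρ a1 a2 a3
    exact ⟨F, g * (1 / ((k : ℝ) + 1)) / 4, by positivity, b1, b2, b3, b4⟩
  choose F γ hγ f1 f2 f3 f4 using h1
  have hgeo : HasSum (fun k : ℕ => (1 / 8 : ℝ) * (1 / 2) ^ k) (1 / 4) := by
    have := hasSum_geometric_two.mul_left (1 / 8 : ℝ)
    norm_num at this ⊢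
    exact this
  have hc : ∀ k : ℕ, (0 : ℝ) < 1 / 8 * (1 / 2) ^ k := fun k => by positivity
  have hsum : ∀ x, ‖x‖ ≤ 2 → HasSum (fun k : ℕ => (1 / 8 : ℝ) * (1 / 2) ^ k * F k x)
      (∑' k : ℕ, (1 / 8 : ℝ) * (1 / 2) ^ k * F k x) := by
    intro x hx
    refine (Summable.of_nonneg_of_le (fun k => mul_nonneg (hc k).le (f1 k x hx).1)
      (fun k => mul_le_of_le_one_right (hc k).le (f1 k x hx).2) hgeo.summable).hasSum
  have hball : ∀ (x y : E) (a b : ℝ), ‖x‖ ≤ 2 → ‖y‖ ≤ 2 → 0 ≤ a → 0 ≤ b → a + b = 1 →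
      ‖a • x + b • y‖ ≤ a * ‖x‖ + b * ‖y‖ ∧ ‖a • x + b • y‖ ≤ 2 := by
    intro x y a b hx hy ha hb hab
    have := norm_add_le (a • x) (b • y)
    rw [norm_smul, norm_smul, Real.norm_of_nonneg ha, Real.norm_of_nonneg hb] at this
    exact ⟨this, by nlinarith⟩
  refine ⟨fun x => ‖x‖ + ∑' k : ℕ, (1 / 8 : ℝ) * (1 / 2) ^ k * F k x, fun x hx => ⟨?_, ?_⟩,
    fun x => by simp only [norm_neg, f2], ?_, ?_⟩
  · have := (hsum x hx).nonneg (fun k => mul_nonneg (hc k).le (f1 k x hx).1)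
    simp only
    linarith
  · have := hasSum_le (fun k => mul_le_of_le_one_right (hc k).le (f1 k x hx).2) (hsum x hx) hgeo
    simp only
    linarith
  · intro x y a b hx hy ha hb hab
    obtain ⟨n1, n2⟩ := hball x y a b hx hy ha hb hab
    have := hasSum_le (fun k => by
      have := mul_le_mul_of_nonneg_left (f3 k x y a b hx hy ha hb hab) (hc k).le
      linarith) (hsum _ n2) (((hsum x hx).mul_left a).add ((hsum y hy).mul_left b))
    simp only
    linarith
  · intro ε hε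
    obtain ⟨k0, hk0⟩ := exists_nat_one_div_lt (half_pos hε)
    refine ⟨1 / 8 * (1 / 2) ^ k0 * γ k0, mul_pos (hc k0) (hγ k0), fun x y hx hy hxy => ?_⟩
    obtain ⟨n1, n2⟩ := hball x y (1 / 2) (1 / 2) hx hy (by norm_num) (by norm_num) (by norm_num)
    rw [← smul_add] at n1 n2
    have := hasSum_le (fun k => by
      by_cases hk : k = k0
      · subst hk
        have := mul_le_mul_of_nonneg_left (f4 k x y hx hy (by linarith)) (hc k).le
        simp only [if_true]
        linarith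
      · have := mul_le_mul_of_nonneg_left (f3 k x y (1 / 2) (1 / 2) hx hy (by norm_num)
          (by norm_num) (by norm_num)) (hc k).le
        rw [← smul_add] at this
        simp only [hk, if_false]
        linarith) (hsum _ n2) ((((hsum x hx).mul_left (1 / 2)).add
          ((hsum y hy).mul_left (1 / 2))).sub (hasSum_ite_eq k0 (1 / 8 * (1 / 2) ^ k0 * γ k0)))
    simp only
    linarith

theorem enflo (h : ∀ ε : ℝ, 0 < ε → ∃ n, ∀ x : E, ¬ IsTree ε n x) :
    ∃ N : Seminorm ℝ E, (∀ x, ‖x‖ ≤ N x ∧ N x ≤ 2 * ‖x‖) ∧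
      ∀ ε : ℝ, 0 < ε → ∃ δ : ℝ, 0 < δ ∧ ∀ x y, N x ≤ 1 → N y ≤ 1 → ε ≤ ‖x - y‖ →
        N ((1 / 2 : ℝ) • (x + y)) ≤ 1 - δ := by
  obtain ⟨G, g1, g2, g3, g4⟩ := exists_convex_fun h
  let K : Set E := {x | ‖x‖ ≤ 2 ∧ G x ≤ 1}
  have hK1 : ∀ x ∈ K, ‖x‖ ≤ 1 := fun x hx => (g1 x hx.1).1.trans hx.2
  have hconv : Convex ℝ K := by
    intro x hx y hy a b ha hb hab
    constructor
    · have := norm_add_le (a • x) (b • y)
      rw [norm_smul, norm_smul, Real.norm_of_nonneg ha, Real.norm_of_nonneg hb] at this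
      nlinarith [hx.1, hy.1]
    · nlinarith [g3 x y a b hx.1 hy.1 ha hb hab, hx.2, hy.2]
  have hbal : Balanced ℝ K := (balanced_iff_neg_mem hconv).mpr (fun x hx =>
    ⟨by rw [norm_neg]; exact hx.1, by rw [g2]; exact hx.2⟩)
  have hsub : Metric.ball (0 : E) (1 / 2) ⊆ K := by
    intro x hx
    rw [mem_ball_zero_iff] at hx
    exact ⟨by linarith, by linarith [(g1 x (by linarith)).2]⟩
  have habs : Absorbent ℝ K := (absorbent_ball_zero (by norm_num)).mono hsub
  let N := gaugeSeminorm hbal hconv habs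
  have hN : ∀ x, N x = gauge K x := fun _ => rfl
  refine ⟨N, fun x => ⟨?_, ?_⟩, fun ε hε => ?_⟩
  · have := le_gauge_of_subset_closedBall (x := x) habs zero_le_one
      (fun u hu => mem_closedBall_zero_iff.mpr (hK1 u hu))
    rwa [div_one] at this
  · have := mul_gauge_le_norm (x := x) hsub
    rw [hN]; linarith
  · obtain ⟨γ, hγ, hγ'⟩ := g4 (ε / 2) (half_pos hε)
    set τ := min (γ / 3) 1 with hτ
    have τ0 : 0 < τ := lt_min (by positivity) one_pos
    have τ1 : τ ≤ 1 := min_le_right _ _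
    have τ2 : τ ≤ γ / 3 := min_le_left _ _
    refine ⟨τ / 4, by positivity, fun x y hx hy hxy => ?_⟩
    have hl : 0 < 1 - τ / 4 := by linarith
    have hin : ∀ u, N u ≤ 1 → (1 - τ / 4) • u ∈ K := by
      intro u hu
      apply setOfPred_gauge_lt_one_subset_self hconv (hsub (Metric.mem_ball_self (by norm_num)))
        habs
      show gauge K _ < 1
      rw [← hN, map_smul_eq_mul, Real.norm_of_nonneg hl.le]
      nlinarith
    have hx' := hin x hx
    have hy' := hin y hy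
    have hd : ε / 2 ≤ ‖(1 - τ / 4) • x - (1 - τ / 4) • y‖ := by
      rw [← smul_sub, norm_smul, Real.norm_of_nonneg hl.le]
      nlinarith
    have hm := hγ' _ _ hx'.1 hy'.1 hd
    set m := (1 / 2 : ℝ) • ((1 - τ / 4) • x + (1 - τ / 4) • y) with hmdef
    have hm1 : ‖m‖ ≤ 1 := norm_mid_le (hK1 _ hx') (hK1 _ hy')
    have hm2 : ‖(2 : ℝ) • m‖ ≤ 2 := by
      rw [norm_smul, Real.norm_of_nonneg (by norm_num)]; linarith
    have hG := g3 m ((2 : ℝ) • m) (1 - τ) τ (by linarith) hm2 (by linarith) τ0.le (by ring)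
    have hG0 : 0 ≤ G m := (norm_nonneg _).trans (g1 m (by linarith)).1
    have hG2 := (g1 _ hm2).2
    have hmem : (1 - τ) • m + τ • (2 : ℝ) • m ∈ K := by
      constructor
      · have := norm_add_le ((1 - τ) • m) (τ • (2 : ℝ) • m)
        rw [norm_smul, norm_smul τ, Real.norm_of_nonneg (by linarith),
          Real.norm_of_nonneg τ0.le] at this
        nlinarith
      · nlinarith [hx'.2, hy'.2]
    have h5 := gauge_le_one_of_mem hmem
    have e : (1 - τ) • m + τ • (2 : ℝ) • m =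
        ((1 + τ) * (1 - τ / 4)) • ((1 / 2 : ℝ) • (x + y)) := by
      rw [hmdef]; module
    rw [e, ← hN, map_smul_eq_mul, Real.norm_of_nonneg (by positivity)] at h5
    have h6 := apply_nonneg N ((1 / 2 : ℝ) • (x + y))
    by_contra hcon
    push Not at hcon
    have h7 : 1 ≤ (1 + τ) * (1 - τ / 4) * (1 - τ / 4) := by nlinarith [mul_pos τ0 τ0]
    nlinarith [mul_lt_mul_of_pos_left hcon (show 0 < (1 + τ) * (1 - τ / 4) by positivity)]

end

end Vale.Agent.P125
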