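import Vale.Agent.P125.Prob

/-! Random increasing sequences all of whose subsequences of a given length have almost the
same law. -/

namespace Vale.Agent.P125

open Finset

noncomputable section

section strings

variable {L : Type} [LinearOrder L] {M : ℕ}

/-- The string branching off the spine `ω` at depth `y`, continued by `η`. -/
def branch (y : L) (ω η : L → Fin (M + 1)) : L → Fin (M + 1) :=
  fun d => if d < y then ω d else if d = y then ω d - 1 else η d

/-- Exchange of a spine and a continuation. -/
def theta (y : L) : ((L → Fin (M + 1)) × (L → Fin (M + 1))) ≃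
    ((L → Fin (M + 1)) × (L → Fin (M + 1))) where
  toFun q := (branch y q.1 q.2, fun d => if d ≤ y then q.2 d else q.1 d)
  invFun q := (fun d => if d < y then q.1 d else if d = y then q.1 d + 1 else q.2 d,
    fun d => if d ≤ y then q.2 d else q.1 d)
  left_inv q := by
    apply Prod.ext
    · funext d
      simp only [branch]
      rcases lt_trichotomy d y with h | h | h
      · simp [h]
      · simp [h]
      · simp [h.ne', not_lt.mpr h.le, not_le.mpr h]
    · funext d
      simp only [branch]
      rcases lt_trichotomy d y with h | h | h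
      · simp [h.le]
      · simp [h]
      · simp [h.ne', not_lt.mpr h.le, not_le.mpr h]
  right_inv q := by
    apply Prod.ext
    · funext d
      simp only [branch]
      rcases lt_trichotomy d y with h | h | h
      · simp [h]
      · simp [h]
      · simp [h.ne', not_lt.mpr h.le, not_le.mpr h]
    · funext d
      rcases lt_trichotomy d y with h | h | h
      · simp [h.le]
      · simp [h]
      · simp [h.ne', not_lt.mpr h.le, not_le.mpr h]

theorem theta_fst (y : L) (q : (L → Fin (M + 1)) × (L → Fin (M + 1))) :
    (theta y q).1 = branch y q.1 q.2 := rfl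

theorem branch_lt {y y' : L} (h : y < y') (ω η η' : L → Fin (M + 1)) (hω : ω y ≠ 0) :
    toLex (branch y ω η) < toLex (branch y' ω η') := by
  refine ⟨y, fun j hj => ?_, ?_⟩
  · show branch y ω η j = branch y' ω η' j
    simp [branch, hj, hj.trans h]
  · show branch y ω η y < branch y' ω η' y
    simp only [branch, lt_irrefl, if_false, if_true, h]
    exact Fin.sub_one_lt_iff.mpr (Fin.pos_iff_ne_zero.mpr hω)

theorem branch_congr {y : L} {ω ω' : L → Fin (M + 1)} (η : L → Fin (M + 1))
    (h : ∀ d, d ≤ y → ω d = ω' d) : branch y ω η = branch y ω' η := by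
  funext d
  simp only [branch]
  rcases lt_trichotomy d y with h1 | h1 | h1
  · simp [h1, h d h1.le]
  · subst h1
    simp [h d le_rfl]
  · simp [h1.ne', not_lt.mpr h1.le]

/-- The fibre map used to move the last index. -/
def fibre {N : ℕ} (i : Fin N) (σ : Equiv.Perm (Fin N)) (y y' : L)
    (q : (L → Fin (M + 1)) × (Fin N → L → Fin (M + 1))) :
    (L → Fin (M + 1)) × (Fin N → L → Fin (M + 1)) :=
  (((theta y').symm (theta y (q.1, q.2 i))).1,
    fun j => Function.update q.2 i ((theta y').symm (theta y (q.1, q.2 i))).2 (σ.symm j))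

theorem fibre_injective {N : ℕ} (i : Fin N) (σ : Equiv.Perm (Fin N)) (y y' : L) :
    Function.Injective (fibre (M := M) i σ y y') := by
  intro q q' h
  have h1 := congrArg Prod.fst h
  have h2 := congrArg Prod.snd h
  simp only [fibre] at h1 h2
  have h3 : Function.update q.2 i ((theta y').symm (theta y (q.1, q.2 i))).2 =
      Function.update q'.2 i ((theta y').symm (theta y (q'.1, q'.2 i))).2 := by
    funext j
    have := congrFun h2 (σ j)
    simpa using this
  have h4 := congrFun h3 i
  simp only [Function.update_self] at h4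
  have h5 : (theta y').symm (theta y (q.1, q.2 i)) = (theta y').symm (theta y (q'.1, q'.2 i)) :=
    Prod.ext h1 h4
  have h6 := (theta y).injective ((theta y').symm.injective h5)
  have h7 := congrArg Prod.fst h6
  have h8 := congrArg Prod.snd h6
  simp only at h7 h8
  apply Prod.ext h7
  funext j
  by_cases hj : j = i
  · rw [hj]; exact h8
  · have := congrFun h3 j
    rwa [Function.update_of_ne hj, Function.update_of_ne hj] at this

end strings

theorem spread_aux (N k : ℕ) : ∀ ε : ℝ, 0 < ε →
    ∃ (Ω L : Type) (_ : Fintype Ω) (_ : Nonempty Ω) (_ : Fintype L) (_ : LinearOrder L)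
      (x : Ω → Fin N → L), pr (fun s => ¬ StrictMono (x s)) ≤ ε ∧
      ∀ k' ≤ k, ∀ b b' : Fin k' → Fin N, StrictMono b → StrictMono b' →
        ∃ T : Ω ≃ Ω, pr (fun s => ¬ ∀ r, x s (b r) = x (T s) (b' r)) ≤ ε := by
  induction k with
  | zero =>
    intro ε hε
    refine ⟨Unit, Fin N, inferInstance, inferInstance, inferInstance, inferInstance,
      fun _ i => i, ?_, ?_⟩
    · refine le_trans (pr_mono (B := fun _ => False) (fun s h => h strictMono_id)) ?_
      rw [pr_false]; exact hε.le
    · intro k' hk' b b' _ _
      obtain rfl : k' = 0 := by omega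
      refine ⟨Equiv.refl _, ?_⟩
      refine le_trans (pr_mono (B := fun _ => False) (fun s h => h (fun r => r.elim0))) ?_
      rw [pr_false]; exact hε.le
  | succ k ih =>
    intro ε hε
    obtain ⟨Ω, L, _, _, _, _, y, hy1, hy2⟩ := ih (ε / 3) (by positivity)
    classical
    obtain ⟨M, hM⟩ := exists_nat_gt (3 * (Fintype.card L : ℝ) / ε)
    refine ⟨Ω × ((L → Fin (M + 1)) × (Fin N → L → Fin (M + 1))), Lex (L → Fin (M + 1)),
      inferInstance, inferInstance, inferInstance, inferInstance,
      fun q i => toLex (branch (y q.1 i) q.2.1 (q.2.2 i)), ?_, ?_⟩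
    · have h1 : pr (fun q : Ω × ((L → Fin (M + 1)) × (Fin N → L → Fin (M + 1))) =>
          ¬ StrictMono (fun i => toLex (branch (y q.1 i) q.2.1 (q.2.2 i)))) ≤
          pr (fun q : Ω × ((L → Fin (M + 1)) × (Fin N → L → Fin (M + 1))) =>
            ¬ StrictMono (y q.1)) +
          pr (fun q : Ω × ((L → Fin (M + 1)) × (Fin N → L → Fin (M + 1))) =>
            ∃ d, q.2.1 d = 0) := by
        apply pr_le_add
        intro q hq
        by_contra hcon
        push Not at hcon
        apply hq
        intro i j hij
        exact branch_lt (hcon.1 hij) _ _ _ (hcon.2 _)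
      rw [pr_fst (fun s => ¬ StrictMono (y s)),
        pr_snd (fun q : (L → Fin (M + 1)) × (Fin N → L → Fin (M + 1)) => ∃ d, q.1 d = 0),
        pr_fst (fun ω : L → Fin (M + 1) => ∃ d, ω d = 0)] at h1
      have h2 : pr (fun ω : L → Fin (M + 1) => ∃ d, ω d = 0) ≤
          ∑ d : L, pr (fun ω : L → Fin (M + 1) => ω d = 0) := by
        apply pr_le_sum
        intro ω ⟨d, hd⟩
        exact ⟨d, Finset.mem_univ _, hd⟩
      have h3 : ∀ d : L, pr (fun ω : L → Fin (M + 1) => ω d = 0) = 1 / ((M + 1 : ℕ) : ℝ) := by
        intro d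
        rw [pr_eval d (fun u : Fin (M + 1) => u = 0), pr_fin_zero]
      simp only [h3] at h2
      rw [Finset.sum_const, Finset.card_univ, nsmul_eq_mul] at h2
      have h4 : (Fintype.card L : ℝ) * (1 / ((M + 1 : ℕ) : ℝ)) ≤ ε / 3 := by
        rw [div_lt_iff₀ hε] at hM
        push_cast
        rw [mul_one_div, div_le_iff₀ (by positivity)]
        nlinarith
      linarith
    · intro k' hk' b b' hb hb'
      rcases k' with _ | k'
      · refine ⟨Equiv.refl _, ?_⟩
        refine le_trans (pr_mono (B := fun _ => False) (fun s h => h (fun r => r.elim0))) ?_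
        rw [pr_false]; exact hε.le
      obtain ⟨T, hT⟩ := hy2 k' (by omega) (fun r => b r.castSucc) (fun r => b' r.castSucc)
        (hb.comp Fin.strictMono_castSucc) (hb'.comp Fin.strictMono_castSucc)
      obtain ⟨σ, hσ⟩ := Equiv.Perm.exists_extending_pair b b' hb.injective hb'.injective
      refine ⟨Equiv.prodShear T (fun s => Equiv.ofBijective
        (fibre (M := M) (b (Fin.last k')) σ (y s (b (Fin.last k'))) (y (T s) (b' (Fin.last k'))))
        (Finite.injective_iff_bijective.mp (fibre_injective _ _ _ _))), ?_⟩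
      have h1 : pr (fun s => ¬ (StrictMono (y s) ∧ StrictMono (y (T s)) ∧
          ∀ r : Fin k', y s (b r.castSucc) = y (T s) (b' r.castSucc))) ≤ ε := by
        have a1 : pr (fun s => ¬ (StrictMono (y s) ∧ StrictMono (y (T s)) ∧
            ∀ r : Fin k', y s (b r.castSucc) = y (T s) (b' r.castSucc))) ≤
            pr (fun s => ¬ StrictMono (y s)) + pr (fun s => ¬ (StrictMono (y (T s)) ∧
            ∀ r : Fin k', y s (b r.castSucc) = y (T s) (b' r.castSucc))) := by
          apply pr_le_add
          intro s hs
          tauto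
        have a2 : pr (fun s => ¬ (StrictMono (y (T s)) ∧
            ∀ r : Fin k', y s (b r.castSucc) = y (T s) (b' r.castSucc))) ≤
            pr (fun s => ¬ StrictMono (y (T s))) + pr (fun s => ¬
            ∀ r : Fin k', y s (b r.castSucc) = y (T s) (b' r.castSucc)) := by
          apply pr_le_add
          intro s hs
          tauto
        rw [pr_equiv T (fun s => ¬ StrictMono (y s))] at a2
        linarith
      rw [← pr_fst (Ω' := (L → Fin (M + 1)) × (Fin N → L → Fin (M + 1)))] at h1
      refine le_trans (pr_mono ?_) h1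
      rintro ⟨s, ω, ξ⟩ hq ⟨c1, c2, c3⟩
      apply hq
      simp only at c1 c2 c3
      have hσ' : ∀ r, σ.symm (b' r) = b r := by
        intro r
        rw [Equiv.symm_apply_eq]
        exact (hσ r).symm
      set yl := y s (b (Fin.last k')) with hyl
      set yl' := y (T s) (b' (Fin.last k')) with hyl'
      set z := (theta yl').symm (theta yl (ω, ξ (b (Fin.last k')))) with hz
      have key : branch yl' z.1 z.2 = branch yl ω (ξ (b (Fin.last k'))) := by
        rw [← theta_fst, hz, Equiv.apply_symm_apply, theta_fst]
      intro r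
      show toLex (branch (y s (b r)) ω (ξ (b r))) =
        toLex (branch (y (T s) (b' r)) z.1
          (Function.update ξ (b (Fin.last k')) z.2 (σ.symm (b' r))))
      rw [hσ']
      congr 1
      refine Fin.lastCases ?_ (fun r => ?_) r
      · rw [Function.update_self]
        exact key.symm
      · rw [Function.update_of_ne (hb (Fin.castSucc_lt_last r)).ne, ← c3 r]
        apply branch_congr
        intro d hd
        have d1 : d < yl := lt_of_le_of_lt hd (c1 (hb (Fin.castSucc_lt_last r)))
        have d2 : d < yl' := by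
          rw [c3 r] at hd
          exact lt_of_le_of_lt hd (c2 (hb' (Fin.castSucc_lt_last r)))
        have := congrFun key d
        simp only [branch, d1, d2, if_true] at this
        exact this.symm

/-- Spreadable random increasing sequences. -/
theorem spread (N : ℕ) (ε : ℝ) (hε : 0 < ε) :
    ∃ (Ω : Type) (_ : Fintype Ω) (_ : Nonempty Ω) (n : ℕ) (x : Ω → ℕ → ℕ),
      (∀ s j, x s j < n) ∧ pr (fun s => ¬ StrictMonoOn (x s) (Set.Iio N)) ≤ ε ∧
      ∀ (k : ℕ) (b b' : ℕ → ℕ), StrictMonoOn b (Set.Iio k) → StrictMonoOn b' (Set.Iio k) →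
        (∀ r < k, b r < N) → (∀ r < k, b' r < N) →
        ∃ T : Ω ≃ Ω, pr (fun s => ¬ ∀ r < k, x s (b r) = x (T s) (b' r)) ≤ ε := by
  obtain ⟨Ω, L, _, _, _, _, y, hy1, hy2⟩ := spread_aux N N ε hε
  let e := monoEquivOfFin L rfl
  refine ⟨Ω, inferInstance, inferInstance, Fintype.card L + 1,
    fun s j => if h : j < N then (e.symm (y s ⟨j, h⟩) : ℕ) else 0, ?_, ?_, ?_⟩
  · intro s j
    by_cases h : j < N
    · simp only [h, dif_pos]
      exact Nat.lt_succ_of_lt (e.symm (y s ⟨j, h⟩)).2
    · simp [h]
  · refine le_trans (pr_mono ?_) hy1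
    intro s hs hs'
    apply hs
    intro i hi j hj hij
    simp only [Set.mem_Iio] at hi hj
    simp only [hi, hj, dif_pos]
    exact e.symm.strictMono (hs' (show (⟨i, hi⟩ : Fin N) < ⟨j, hj⟩ from hij))
  · intro k b b' hb hb' h1 h1'
    have hk : k ≤ N := by
      have hinj : Function.Injective (fun r : Fin k => (⟨b r, h1 r r.2⟩ : Fin N)) := by
        intro r r' h
        have := congrArg Fin.val h
        exact Fin.ext (hb.injOn r.2 r'.2 this)
      simpa using Fintype.card_le_of_injective _ hinj
    obtain ⟨T, hT⟩ := hy2 k hk (fun r => ⟨b r, h1 r r.2⟩) (fun r => ⟨b' r, h1' r r.2⟩)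
      (fun r r' h => hb r.2 r'.2 h) (fun r r' h => hb' r.2 r'.2 h)
    refine ⟨T, le_trans (pr_mono ?_) hT⟩
    intro s hs hs'
    apply hs
    intro r hr
    simp only [h1 r hr, h1' r hr, dif_pos]
    rw [hs' ⟨r, hr⟩]

end

end Vale.Agent.P125
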