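import Vale.Agent.P125.Walk
import Vale.Agent.P125.Spread

/-! Spreading invariant seminorms on finitely supported sequences with Markov type. -/

namespace Vale.Agent.P125

open Finset Filter Topology

noncomputable section

/-- Finitely supported real sequences. -/
abbrev V := ℕ →₀ ℝ

/-- The functional `v ↦ ∑ φ i * v i`. -/
def lc (φ : ℕ → ℝ) : V →ₗ[ℝ] ℝ := Finsupp.linearCombination ℝ φ

/-- Push forward along a map of indices. -/
def md (ψ : ℕ → ℕ) : V →ₗ[ℝ] V := Finsupp.lmapDomain ℝ ℝ ψ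

theorem md_single (ψ : ℕ → ℕ) (i : ℕ) (a : ℝ) :
    md ψ (Finsupp.single i a) = Finsupp.single (ψ i) a := Finsupp.mapDomain_single

theorem md_md (ψ φ : ℕ → ℕ) (v : V) : md ψ (md φ v) = md (fun i => ψ (φ i)) v :=
  (Finsupp.mapDomain_comp (f := φ) (g := ψ)).symm

theorem md_congr {ψ φ : ℕ → ℕ} {v : V} {H : ℕ} (hv : ∀ i, H ≤ i → v i = 0)
    (h : ∀ i < H, ψ i = φ i) : md ψ v = md φ v := by
  apply Finsupp.mapDomain_congr
  intro i hi
  apply h
  by_contra hc
  exact (Finsupp.mem_support_iff.mp hi) (hv i (not_lt.mp hc))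

theorem md_id (v : V) : md (fun i => i) v = v := Finsupp.mapDomain_id

theorem md_zero {ψ : ℕ → ℕ} {v : V} {H H' : ℕ} (hv : ∀ i, H ≤ i → v i = 0)
    (h : ∀ i < H, ψ i < H') : ∀ j, H' ≤ j → md ψ v j = 0 := by
  intro j hj
  by_contra hc
  have h1 : j ∈ (Finsupp.mapDomain ψ v).support := Finsupp.mem_support_iff.mpr hc
  obtain ⟨i, hi, rfl⟩ := Finset.mem_image.mp (Finsupp.mapDomain_support h1)
  have : i < H := by
    by_contra hc'
    exact (Finsupp.mem_support_iff.mp hi) (hv i (not_lt.mp hc'))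
  exact absurd (h i this) (not_lt.mpr hj)

theorem exists_bound (v : V) : ∃ H, ∀ i, H ≤ i → v i = 0 := by
  refine ⟨v.support.sup id + 1, fun i hi => ?_⟩
  by_contra hc
  have : id i ≤ v.support.sup id := Finset.le_sup (Finsupp.mem_support_iff.mpr hc)
  simp only [id] at this hi
  omega

theorem comb_congr {X : Type*} [AddCommGroup X] [Module ℝ X] {f g : ℕ → X} {v : V} {H : ℕ}
    (hv : ∀ i, H ≤ i → v i = 0) (h : ∀ i < H, f i = g i) :
    Finsupp.linearCombination ℝ f v = Finsupp.linearCombination ℝ g v := by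
  rw [Finsupp.linearCombination_apply, Finsupp.linearCombination_apply]
  apply Finsupp.sum_congr
  intro i hi
  rw [h i]
  by_contra hc
  exact (Finsupp.mem_support_iff.mp hi) (hv i (not_lt.mp hc))

theorem comb_md {X : Type*} [AddCommGroup X] [Module ℝ X] (f : ℕ → X) (ψ : ℕ → ℕ) (v : V) :
    Finsupp.linearCombination ℝ f (md ψ v) = Finsupp.linearCombination ℝ (fun i => f (ψ i)) v :=
  Finsupp.linearCombination_mapDomain ℝ ψ v

theorem lc_md (f : ℕ → ℝ) (ψ : ℕ → ℕ) (v : V) : lc f (md ψ v) = lc (fun i => f (ψ i)) v :=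
  comb_md f ψ v

theorem lc_single (f : ℕ → ℝ) (i : ℕ) (a : ℝ) : lc f (Finsupp.single i a) = a * f i :=
  Finsupp.linearCombination_single ℝ a i

theorem norm_comb_le {X : Type*} [NormedAddCommGroup X] [NormedSpace ℝ X] {f : ℕ → X}
    (hf : ∀ i, ‖f i‖ ≤ 1) (v : V) :
    ‖Finsupp.linearCombination ℝ f v‖ ≤ ∑ i ∈ v.support, |v i| := by
  rw [Finsupp.linearCombination_apply]
  refine (norm_sum_le _ _).trans (Finset.sum_le_sum (fun i _ => ?_))
  rw [norm_smul, Real.norm_eq_abs]
  exact mul_le_of_le_one_right (abs_nonneg _) (hf i)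

theorem semi_sum_le {W : Type*} [AddCommGroup W] [Module ℝ W] (N : Seminorm ℝ W) {ι : Type*}
    (s : Finset ι) (f : ι → W) : N (∑ i ∈ s, f i) ≤ ∑ i ∈ s, N (f i) :=
  Finset.le_sum_of_subadditive N (map_zero N).le (map_add_le_add N) s f

/-- The properties carried through the limiting procedures. -/
structure Good (p C δ : ℝ) (N : Seminorm ℝ V) : Prop where
  cmt : CMT (fun v => N v ^ p) C
  unit : ∀ i, N (Finsupp.single i 1) ≤ 1
  james : ∀ v, lc (fun _ => 1) v = 0 → ∀ k : ℕ,
    δ * |lc (fun i => if i < k then 1 else 0) v| ≤ N v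
  spread : ∀ (H : ℕ) (ψ : ℕ → ℕ), StrictMonoOn ψ (Set.Iio H) → ∀ v : V,
    (∀ i, H ≤ i → v i = 0) → N (md ψ v) = N v

theorem Good.spread' {p C δ : ℝ} {N : Seminorm ℝ V} (h : Good p C δ N) {ψ : ℕ → ℕ}
    (hψ : StrictMono ψ) (v : V) : N (md ψ v) = N v := by
  obtain ⟨H, hH⟩ := exists_bound v
  exact h.spread H ψ (hψ.strictMonoOn _) v hH

theorem cmt_comp {W W' : Type*} [AddCommGroup W] [AddCommGroup W'] {ρ : W' → ℝ} {C : ℝ}
    (h : CMT ρ C) (A : W →+ W') : CMT (fun v => ρ (A v)) C := by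
  intro Ω G _ _ _ _ τ hτ c hc t ht
  have := h Ω G τ hτ (fun g s => A (c g s)) (fun g s => by rw [hc, map_neg]) t ht
  simp only [map_sum]
  exact this

theorem cmt_ex {W : Type*} [AddCommGroup W] {I : Type} [Fintype I] {ρ : I → W → ℝ} {C : ℝ}
    (h : ∀ i, CMT (ρ i) C) : CMT (fun v => ex (fun i => ρ i v)) C := by
  intro Ω G _ _ _ _ τ hτ c hc t ht
  have e1 : ∀ {A B : Type} [Fintype A] [Fintype B] (F : A → B → I → ℝ),
      ex (fun a => ex (fun b => ex (fun i => F a b i))) =
      ex (fun i => ex (fun a => ex (fun b => F a b i))) := by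
    intro A B _ _ F
    rw [ex_comm (fun i a => ex (fun b => F a b i))]
    exact ex_congr (fun a => ex_comm (fun b i => F a b i))
  rw [e1, e1, ← ex_mul_left]
  exact ex_mono (fun i => h i Ω G τ hτ c hc t ht)

theorem cmt_limit {W : Type*} [AddCommGroup W] {ι : Type} {F : Filter ι} [F.NeBot]
    {ρ : ι → W → ℝ} {ρ' : W → ℝ} {C : ℝ} (h : ∀ i, CMT (ρ i) C)
    (hl : ∀ v, Tendsto (fun i => ρ i v) F (𝓝 (ρ' v))) : CMT ρ' C := by
  intro Ω G _ _ _ _ τ hτ c hc t ht
  refine le_of_tendsto_of_tendsto' (b := F)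
    (tendsto_ex (fun s => tendsto_ex (fun w => hl _)))
    ((tendsto_ex (fun s => tendsto_ex (fun g => hl _))).const_mul (C * t))
    (fun i => h i Ω G τ hτ c hc t ht)

/-- Pointwise limit of seminorms. -/
def limSemi {W : Type*} [AddCommGroup W] [Module ℝ W] {ι : Type} (F : Filter ι) [F.NeBot]
    (Ns : ι → Seminorm ℝ W) (N : W → ℝ) (hl : ∀ v, Tendsto (fun i => Ns i v) F (𝓝 (N v))) :
    Seminorm ℝ W :=
  Seminorm.of N
    (fun x y => le_of_tendsto_of_tendsto' (hl (x + y)) ((hl x).add (hl y))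
      (fun i => map_add_le_add (Ns i) x y))
    (fun a x => by
      have h1 := (hl x).const_mul ‖a‖
      have h2 := hl (a • x)
      simp only [map_smul_eq_mul] at h2
      exact tendsto_nhds_unique h2 h1)

theorem good_limit {p C δ : ℝ} (hp : 0 ≤ p) {ι : Type} (F : Filter ι) [F.NeBot]
    (Ns : ι → Seminorm ℝ V) (N : Seminorm ℝ V) (hl : ∀ v, Tendsto (fun i => Ns i v) F (𝓝 (N v)))
    (h : ∀ i, Good p C δ (Ns i)) : Good p C δ N where
  cmt := cmt_limit (F := F) (fun i => (h i).cmt) (fun v => (hl v).rpow_const (Or.inr hp))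
  unit i := le_of_tendsto' (hl _) (fun j => (h j).unit i)
  james v hv k := ge_of_tendsto' (hl _) (fun j => (h j).james v hv k)
  spread H ψ hψ v hv := by
    have h2 := hl (md ψ v)
    simp only [fun j => (h j).spread H ψ hψ v hv] at h2
    exact tendsto_nhds_unique h2 (hl v)

/-- The `L_p` average of norms of a finite family of linear maps. -/
def lpSemi {W X : Type*} [AddCommGroup W] [Module ℝ W] [NormedAddCommGroup X] [NormedSpace ℝ X]
    {p : ℝ} (hp : 1 ≤ p) {I : Type} [Fintype I] (L : I → W →ₗ[ℝ] X) : Seminorm ℝ W :=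
  Seminorm.of (fun v => (ex (fun i => ‖L i v‖ ^ p)) ^ (1 / p))
    (fun x y => by
      have h := Real.Lp_add_le_of_nonneg Finset.univ (f := fun i => ‖L i x‖)
        (g := fun i => ‖L i y‖) hp (fun _ _ => norm_nonneg _) (fun _ _ => norm_nonneg _)
      have hp0 : 0 ≤ p := by linarith
      have h2 : ∑ i, ‖L i (x + y)‖ ^ p ≤ ∑ i, (‖L i x‖ + ‖L i y‖) ^ p :=
        Finset.sum_le_sum (fun i _ => Real.rpow_le_rpow (norm_nonneg _)
          (by rw [map_add]; exact norm_add_le _ _) hp0)
      have h3 := (Real.rpow_le_rpow (Finset.sum_nonneg (fun i _ => by positivity)) h2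
        (by positivity : 0 ≤ 1 / p)).trans h
      unfold ex
      rw [Real.div_rpow (Finset.sum_nonneg (fun i _ => by positivity)) (Nat.cast_nonneg _),
        Real.div_rpow (Finset.sum_nonneg (fun i _ => by positivity)) (Nat.cast_nonneg _),
        Real.div_rpow (Finset.sum_nonneg (fun i _ => by positivity)) (Nat.cast_nonneg _),
        ← add_div]
      exact div_le_div_of_nonneg_right h3 (by positivity))
    (fun a x => by
      have hp0 : p ≠ 0 := by linarith
      simp only [map_smul, norm_smul]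
      have : ∀ i, (‖a‖ * ‖L i x‖) ^ p = ‖a‖ ^ p * ‖L i x‖ ^ p :=
        fun i => Real.mul_rpow (norm_nonneg _) (norm_nonneg _)
      simp only [this]
      rw [ex_mul_left, Real.mul_rpow (by positivity) (ex_nonneg (fun i => by positivity)),
        ← Real.rpow_mul (norm_nonneg _), mul_one_div_cancel hp0, Real.rpow_one])

theorem lpSemi_rpow {W X : Type*} [AddCommGroup W] [Module ℝ W] [NormedAddCommGroup X]
    [NormedSpace ℝ X] {p : ℝ} (hp : 1 ≤ p) {I : Type} [Fintype I] (L : I → W →ₗ[ℝ] X) (v : W) :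
    lpSemi hp L v ^ p = ex (fun i => ‖L i v‖ ^ p) := by
  have hp0 : p ≠ 0 := by linarith
  show ((ex (fun i => ‖L i v‖ ^ p)) ^ (1 / p)) ^ p = _
  rw [← Real.rpow_mul (ex_nonneg (fun i => by positivity)), one_div_mul_cancel hp0, Real.rpow_one]

/-- Finite James systems in `L_1`-averaged form. -/
def JamesFamily (X : Type*) [NormedAddCommGroup X] [NormedSpace ℝ X] (δ : ℝ) : Prop :=
  ∀ n : ℕ, ∃ (I : Type) (_ : Fintype I) (_ : Nonempty I) (y : I → ℕ → X),
    (∀ i j, ‖y i j‖ ≤ 1) ∧ ∀ κ < n, ∀ φ : ℕ → ℕ, (∀ j, φ j < n) → ∀ v : V,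
      lc (fun _ => 1) v = 0 → δ * |lc (fun j => if φ j ≤ κ then 1 else 0) v| ≤
        ex (fun i => ‖Finsupp.linearCombination ℝ (fun j => y i (φ j)) v‖)

theorem exists_good {X : Type*} [NormedAddCommGroup X] [NormedSpace ℝ X] {p C δ : ℝ}
    (hp : 1 ≤ p) (hδ : 0 ≤ δ) (hC : CMT (fun x : X => ‖x‖ ^ p) C) (hJ : JamesFamily X δ) :
    ∃ N, Good p C δ N := by
  have hp0 : 0 < p := by linarith
  choose Ω fΩ nΩ n x hx0 hx1 hx2 using
    fun l : ℕ => spread l (1 / ((l : ℝ) + 1)) (by positivity)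
  choose I fI nI y hy0 hy1 using fun l => hJ (n l)
  let Ns : ℕ → Seminorm ℝ V := fun l => lpSemi hp (fun q : Ω l × I l =>
    Finsupp.linearCombination ℝ (fun j => y l q.2 (x l q.1 j)))
  have hNs : ∀ l v, Ns l v ^ p = ex (fun s => ex (fun i =>
      ‖Finsupp.linearCombination ℝ (fun j => y l i (x l s j)) v‖ ^ p)) := by
    intro l v
    rw [lpSemi_rpow, ex_prod]
  have hB : ∀ l i (φ : ℕ → ℕ) (v : V), ‖Finsupp.linearCombination ℝ (fun j => y l i (φ j)) v‖ ^ p ≤
      (∑ i ∈ v.support, |v i|) ^ p := fun l i φ v =>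
    Real.rpow_le_rpow (norm_nonneg _) (norm_comb_le (fun j => hy0 l i _) v) hp0.le
  have hB' : ∀ l (v : V), Ns l v ≤ ∑ i ∈ v.support, |v i| := by
    intro l v
    rw [← Real.rpow_le_rpow_iff (apply_nonneg _ _)
      (Finset.sum_nonneg (fun i _ => abs_nonneg _)) hp0, hNs]
    refine le_trans (ex_mono (fun s => ex_mono (fun i => hB l i _ v))) ?_
    rw [ex_const, ex_const]
  have hlim : ∀ v : V, ∃ a, Tendsto (fun l => Ns l v) (hyperfilter ℕ) (𝓝 a) := by
    intro v
    obtain ⟨a, _, ha⟩ := (isCompact_Icc (a := (0 : ℝ))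
      (b := ∑ i ∈ v.support, |v i|)).ultrafilter_le_nhds
      ((hyperfilter ℕ).map (fun l => Ns l v)) (by
        rw [Ultrafilter.coe_map, le_principal_iff, Filter.mem_map]
        exact univ_mem' (fun l => ⟨apply_nonneg _ _, hB' l v⟩))
    exact ⟨a, ha⟩
  choose N0 hN0 using hlim
  let N := limSemi (hyperfilter ℕ) Ns N0 hN0
  have hN : ∀ v, Tendsto (fun l => Ns l v) (hyperfilter ℕ) (𝓝 (N v)) := hN0
  have hNp : ∀ v, Tendsto (fun l => Ns l v ^ p) (hyperfilter ℕ) (𝓝 (N v ^ p)) :=
    fun v => (hN v).rpow_const (Or.inr hp0.le)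
  have heps : Tendsto (fun l : ℕ => 1 / ((l : ℝ) + 1)) (hyperfilter ℕ) (𝓝 0) :=
    tendsto_one_div_add_atTop_nhds_zero_nat.mono_left Nat.hyperfilter_le_atTop
  have hev : ∀ H : ℕ, ∀ᶠ l in (hyperfilter ℕ : Filter ℕ), H ≤ l :=
    fun H => (eventually_ge_atTop H).filter_mono Nat.hyperfilter_le_atTop
  refine ⟨N, ?_, ?_, ?_, ?_⟩
  · refine cmt_limit (F := hyperfilter ℕ) (ρ := fun l v => Ns l v ^ p) (fun l => ?_) hNp
    have : (fun v => Ns l v ^ p) = fun v => ex (fun q : Ω l × I l =>
      ‖Finsupp.linearCombination ℝ (fun j => y l q.2 (x l q.1 j)) v‖ ^ p) := by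
      funext v
      exact lpSemi_rpow _ _ _
    rw [this]
    exact cmt_ex (fun q => cmt_comp hC
      (Finsupp.linearCombination ℝ (fun j => y l q.2 (x l q.1 j))).toAddMonoidHom)
  · intro i
    refine le_of_tendsto' (hN _) (fun l => (hB' l _).trans ?_)
    rw [Finsupp.support_single _ one_ne_zero]
    simp
  · intro v hv k
    rcases Nat.eq_zero_or_pos k with rfl | hk
    · have : lc (fun i => if i < 0 then (1 : ℝ) else 0) v = 0 := by
        simp only [Nat.not_lt_zero, if_false]
        exact Finsupp.linearCombination_zero_apply ℝ v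
      rw [this, abs_zero, mul_zero]
      exact apply_nonneg _ _
    obtain ⟨H, hH⟩ := exists_bound v
    set a := δ * |lc (fun i => if i < k then 1 else 0) v| with ha
    have ha0 : 0 ≤ a := by positivity
    rw [← Real.rpow_le_rpow_iff ha0 (apply_nonneg _ _) hp0]
    have h1 : Tendsto (fun l : ℕ => (1 - 1 / ((l : ℝ) + 1)) * a ^ p) (hyperfilter ℕ)
        (𝓝 (a ^ p)) := by
      have := (heps.const_sub 1).mul_const (a ^ p)
      simpa using this
    refine le_of_tendsto_of_tendsto h1 (hNp v) ?_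
    filter_upwards [hev H, hev k] with l hl hl'
    rw [hNs]
    have h2 : ∀ s, ind (StrictMonoOn (x l s) (Set.Iio l)) * a ^ p ≤ ex (fun i =>
        ‖Finsupp.linearCombination ℝ (fun j => y l i (x l s j)) v‖ ^ p) := by
      intro s
      by_cases hs : StrictMonoOn (x l s) (Set.Iio l)
      · rw [ind_pos hs, one_mul]
        refine le_trans ?_ (ex_rpow_le hp _ (fun i => norm_nonneg _))
        refine Real.rpow_le_rpow ha0 ?_ hp0.le
        have h3 := hy1 l (x l s (k - 1)) (hx0 l s _) (x l s) (hx0 l s) v hv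
        have h4 : lc (fun j => if x l s j ≤ x l s (k - 1) then 1 else 0) v =
            lc (fun i => if i < k then 1 else 0) v := by
          refine comb_congr hH (fun j hj => ?_)
          have : x l s j ≤ x l s (k - 1) ↔ j < k := by
            rw [hs.le_iff_le (show j < l by omega) (show k - 1 < l by omega)]
            omega
          simp only [this]
        rwa [h4] at h3
      · rw [ind_neg hs, zero_mul]
        exact ex_nonneg (fun i => by positivity)
    refine le_trans ?_ (ex_mono h2)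
    rw [ex_mul_right]
    refine mul_le_mul_of_nonneg_right ?_ (by positivity)
    have h5 := hx1 l
    rw [pr_not] at h5
    unfold pr at h5
    linarith
  · intro H ψ hψ v hv
    set B := (∑ i ∈ v.support, |v i|) ^ p with hBdef
    have hB0 : 0 ≤ B := Real.rpow_nonneg (Finset.sum_nonneg (fun i _ => abs_nonneg _)) _
    have key : ∀ᶠ l in (hyperfilter ℕ : Filter ℕ),
        Ns l (md ψ v) ^ p ≤ Ns l v ^ p + 1 / ((l : ℝ) + 1) * B ∧
        Ns l v ^ p ≤ Ns l (md ψ v) ^ p + 1 / ((l : ℝ) + 1) * B := by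
      filter_upwards [hev H, hev ((range H).sup ψ + 1)] with l hl hl'
      obtain ⟨T, hT⟩ := hx2 l H ψ (fun i => i) hψ (strictMono_id.strictMonoOn _)
        (fun r hr => by
          have : ψ r ≤ (range H).sup ψ := Finset.le_sup (Finset.mem_range.mpr hr)
          omega) (fun r hr => by omega)
      rw [hNs, hNs, ← ex_equiv T (fun s => ex (fun i =>
        ‖Finsupp.linearCombination ℝ (fun j => y l i (x l s j)) v‖ ^ p))]
      simp only [comb_md]
      have hpr : ex (fun s => ind (¬ ∀ r < H, x l s (ψ r) = x l (T s) r) * B) ≤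
          1 / ((l : ℝ) + 1) * B := by
        rw [ex_mul_right]
        exact mul_le_mul_of_nonneg_right hT hB0
      have hc : ∀ s, (∀ r < H, x l s (ψ r) = x l (T s) r) → ∀ i,
          Finsupp.linearCombination ℝ (fun j => y l i (x l s (ψ j))) v =
          Finsupp.linearCombination ℝ (fun j => y l i (x l (T s) j)) v := by
        intro s hs i
        exact comb_congr hv (fun j hj => by rw [hs j hj])
      have hBex : ∀ φ : ℕ → ℕ, ex (fun i =>
          ‖Finsupp.linearCombination ℝ (fun j => y l i (φ j)) v‖ ^ p) ≤ B := by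
        intro φ
        refine le_trans (ex_mono (fun i => hB l i φ v)) ?_
        rw [ex_const]
      constructor
      · refine le_trans ?_ (add_le_add_right hpr _)
        rw [← ex_add]
        refine ex_mono (fun s => ?_)
        by_cases hs : ∀ r < H, x l s (ψ r) = x l (T s) r
        · rw [ind_neg (not_not.mpr hs), zero_mul, add_zero]
          simp only [hc s hs]
          exact le_rfl
        · rw [ind_pos hs, one_mul]
          have := ex_nonneg (f := fun i =>
            ‖Finsupp.linearCombination ℝ (fun j => y l i (x l (T s) j)) v‖ ^ p)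
            (fun i => by positivity)
          linarith [hBex (fun j => x l s (ψ j))]
      · refine le_trans ?_ (add_le_add_right hpr _)
        rw [← ex_add]
        refine ex_mono (fun s => ?_)
        by_cases hs : ∀ r < H, x l s (ψ r) = x l (T s) r
        · rw [ind_neg (not_not.mpr hs), zero_mul, add_zero]
          simp only [hc s hs]
          exact le_rfl
        · rw [ind_pos hs, one_mul]
          have := ex_nonneg (f := fun i =>
            ‖Finsupp.linearCombination ℝ (fun j => y l i (x l s (ψ j))) v‖ ^ p)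
            (fun i => by positivity)
          linarith [hBex (fun j => x l (T s) j)]
    have hlimB : ∀ u : V, Tendsto (fun l : ℕ => Ns l u ^ p + 1 / ((l : ℝ) + 1) * B)
        (hyperfilter ℕ) (𝓝 (N u ^ p)) := by
      intro u
      have := (hNp u).add (heps.mul_const B)
      simpa using this
    apply le_antisymm
    · rw [← Real.rpow_le_rpow_iff (apply_nonneg _ _) (apply_nonneg _ _) hp0]
      exact le_of_tendsto_of_tendsto (hNp _) (hlimB v) (key.mono (fun l hl => hl.1))
    · rw [← Real.rpow_le_rpow_iff (apply_nonneg _ _) (apply_nonneg _ _) hp0]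
      exact le_of_tendsto_of_tendsto (hNp _) (hlimB _) (key.mono (fun l hl => hl.2))

end

end Vale.Agent.P125
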