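import Vale.Agent.P125.Chain

/-! Separated dyadic trees give James systems. -/

namespace Vale.Agent.P125

open Finset

noncomputable section

/-- `x` is the root of an `ε`-separated dyadic tree of height `n` in the ball of radius `2`. -/
def IsTree {E : Type*} [NormedAddCommGroup E] [NormedSpace ℝ E] (ε : ℝ) : ℕ → E → Prop
  | 0, x => ‖x‖ ≤ 2
  | n + 1, x => ∃ y z, IsTree ε n y ∧ IsTree ε n z ∧ x = (1 / 2 : ℝ) • (y + z) ∧ ε ≤ ‖y - z‖

theorem norm_mid_le {E : Type*} [NormedAddCommGroup E] [NormedSpace ℝ E] {y z : E} {r : ℝ}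
    (hy : ‖y‖ ≤ r) (hz : ‖z‖ ≤ r) : ‖(1 / 2 : ℝ) • (y + z)‖ ≤ r := by
  rw [norm_smul, Real.norm_eq_abs, abs_of_pos (by norm_num)]
  linarith [norm_add_le y z]

theorem IsTree.norm_le {E : Type*} [NormedAddCommGroup E] [NormedSpace ℝ E] {ε : ℝ} {n : ℕ}
    {x : E} (h : IsTree ε n x) : ‖x‖ ≤ 2 := by
  induction n generalizing x with
  | zero => exact h
  | succ n ih =>
    obtain ⟨y, z, hy, hz, rfl, -⟩ := h
    exact norm_mid_le (ih hy) (ih hz)

theorem biorth {E F : Type*} [NormedAddCommGroup E] [NormedSpace ℝ E] [NormedAddCommGroup F]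
    [NormedSpace ℝ F] (B : E →ₗ[ℝ] F →ₗ[ℝ] ℝ) {ε : ℝ}
    (hB : ∀ x : E, ε ≤ ‖x‖ → ∃ w : F, ‖w‖ ≤ 1 ∧ B x w = ε / 2) (n : ℕ) :
    ∀ x : E, IsTree ε n x → ∃ (I : Type) (_ : Fintype I) (_ : Nonempty I) (m : I → ℕ → E)
      (w : I → ℕ → F), (∀ i j, ‖m i j‖ ≤ 2) ∧ (∀ i k, ‖w i k‖ ≤ 1) ∧
      (∀ j u, ex (fun i => B (m i j) u) = B x u) ∧ (∀ k e, ex (fun i => B e (w i k)) = 0) ∧
      (∀ i, m i 0 = x) ∧
      ∀ k < n, ∀ j, ex (fun i => B (m i j) (w i k)) = if k < j then ε / 4 else 0 := by
  induction n with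
  | zero =>
    intro x hx
    refine ⟨Unit, inferInstance, inferInstance, fun _ _ => x, fun _ _ => 0, fun _ _ => hx,
      fun _ _ => by simp, fun _ _ => ex_const _, fun _ _ => by simp [ex_const], fun _ => rfl,
      fun k hk => absurd hk (Nat.not_lt_zero k)⟩
  | succ n ih =>
    intro x hx
    have hxn := hx.norm_le
    obtain ⟨y, z, hy, hz, hxe, hyz⟩ := hx
    obtain ⟨I, _, _, m, w, a1, a2, a3, a4, a5, a6⟩ := ih y hy
    obtain ⟨I', _, _, m', w', b1, b2, b3, b4, b5, b6⟩ := ih z hz
    obtain ⟨w0, hw0, hw1⟩ := hB _ hyz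
    let M : Bool × I × I' → ℕ → E := fun l j => match j with
      | 0 => x
      | j + 1 => if l.1 then m l.2.1 j else m' l.2.2 j
    let W : Bool × I × I' → ℕ → F := fun l k => match k with
      | 0 => if l.1 then w0 else -w0
      | k + 1 => if l.1 then w l.2.1 k else w' l.2.2 k
    have coin : ∀ (f : I → ℝ) (g : I' → ℝ) (h : Bool × I × I' → ℝ),
        (∀ i i', h (true, i, i') = f i) → (∀ i i', h (false, i, i') = g i') →
        ex h = (ex f + ex g) / 2 := by
      intro f g h h1 h2
      rw [← ex_coin]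
      refine ex_congr ?_
      rintro ⟨_ | _, i, i'⟩
      · simp [h2]
      · simp [h1]
    have hW : ∀ k e, ex (fun i => B e (W i k)) = 0 := by
      intro k e
      rcases k with _ | k
      · rw [coin (fun _ => B e w0) (fun _ => - B e w0) _ (fun _ _ => rfl)
          (fun _ _ => by simp [W]), ex_const, ex_const]
        ring
      · rw [coin (fun i => B e (w i k)) (fun i => B e (w' i k)) _ (fun _ _ => rfl)
          (fun _ _ => rfl), a4, b4]
        ring
    refine ⟨Bool × I × I', inferInstance, inferInstance, M, W, ?_, ?_, ?_, hW, fun _ => rfl, ?_⟩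
    · rintro ⟨_ | _, i, i'⟩ (_ | j)
      · exact hxn
      · exact b1 i' j
      · exact hxn
      · exact a1 i j
    · rintro ⟨_ | _, i, i'⟩ (_ | j)
      · show ‖-w0‖ ≤ 1
        rwa [norm_neg]
      · exact b2 i' j
      · exact hw0
      · exact a2 i j
    · intro j u
      rcases j with _ | j
      · exact ex_const (Ω := Bool × I × I') (B x u)
      · rw [coin (fun i => B (m i j) u) (fun i => B (m' i j) u) _ (fun _ _ => rfl)
          (fun _ _ => rfl), a3, b3, hxe]
        simp only [map_smul, map_add, LinearMap.smul_apply, LinearMap.add_apply, smul_eq_mul]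
        ring
    · intro k hk j
      rcases j with _ | j
      · rw [if_neg (Nat.not_lt_zero k)]
        exact hW k x
      rcases k with _ | k
      · rw [coin (fun i => B (m i j) w0) (fun i => B (m' i j) (-w0)) _ (fun _ _ => rfl)
          (fun _ _ => rfl), a3, b3, if_pos (Nat.succ_pos j)]
        simp only [map_sub, LinearMap.sub_apply] at hw1
        simp only [map_neg]
        linarith
      · rw [coin (fun i => B (m i j) (w i k)) (fun i => B (m' i j) (w' i k)) _ (fun _ _ => rfl)
          (fun _ _ => rfl), a6 k (by omega), b6 k (by omega)]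
        simp only [Nat.add_lt_add_iff_right]
        ring

theorem ex_comb {X : Type*} [AddCommGroup X] [Module ℝ X] {I : Type} [Fintype I]
    (L : I → X →ₗ[ℝ] ℝ) (f : I → ℕ → X) (v : V) :
    ex (fun i => L i (Finsupp.linearCombination ℝ (f i) v)) =
      lc (fun j => ex (fun i => L i (f i j))) v := by
  induction v using Finsupp.induction_linear with
  | zero => simp [ex]
  | add a b ha hb => simp only [map_add, ex_add, ha, hb]
  | single j a =>
    simp only [Finsupp.linearCombination_single, map_smul, smul_eq_mul, ex_mul_left, lc_single]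

theorem lc_add_fun (f g : ℕ → ℝ) (a b : ℝ) (v : V) :
    lc (fun j => a * f j + b * g j) v = a * lc f v + b * lc g v := by
  induction v using Finsupp.induction_linear with
  | zero => simp
  | add u v hu hv => simp only [map_add, hu, hv]; ring
  | single j c => simp only [lc_single]; ring

theorem james_of_tree {X : Type*} [NormedAddCommGroup X] [NormedSpace ℝ X] {ε : ℝ} (hε : 0 < ε)
    (h : ∀ n, ∃ x : X, IsTree ε n x) : JamesFamily X (ε / 8) := by
  intro n
  obtain ⟨x, hx⟩ := h n
  let B : X →ₗ[ℝ] StrongDual ℝ X →ₗ[ℝ] ℝ :=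
    LinearMap.mk₂ ℝ (fun x f => f x) (fun _ _ _ => map_add _ _ _) (fun _ _ _ => map_smul _ _ _)
      (fun _ _ _ => rfl) (fun _ _ _ => rfl)
  have hBapp : ∀ x f, B x f = f x := fun _ _ => rfl
  obtain ⟨I, _, _, m, w, a1, a2, -, -, -, a6⟩ := biorth B (ε := ε) (fun u hu => by
    obtain ⟨g, hg1, hg2⟩ := exists_dual_vector'' ℝ u
    have hu0 : 0 < ‖u‖ := by linarith
    refine ⟨(ε / (2 * ‖u‖)) • g, ?_, ?_⟩
    · rw [norm_smul, Real.norm_eq_abs, abs_of_pos (by positivity)]
      have : ε / (2 * ‖u‖) ≤ 1 := by rw [div_le_one (by positivity)]; linarith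
      exact mul_le_one₀ this (norm_nonneg _) hg1
    · rw [hBapp, smul_apply, hg2]
      simp only [RCLike.ofReal_real_eq_id, id, smul_eq_mul]
      field_simp) n x hx
  refine ⟨I, inferInstance, inferInstance, fun i j => (1 / 2 : ℝ) • m i j, fun i j => ?_, ?_⟩
  · rw [norm_smul, Real.norm_eq_abs, abs_of_pos (by norm_num)]
    linarith [a1 i j]
  · intro κ hκ φ _ v hv
    have h1 := ex_comb (fun i => (w i κ).toLinearMap) (fun i j => (1 / 2 : ℝ) • m i (φ j)) v
    have h2 : (fun j => ex (fun i => (w i κ).toLinearMap ((1 / 2 : ℝ) • m i (φ j)))) =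
        fun j => (ε / 8) * 1 + (-(ε / 8)) * (if φ j ≤ κ then 1 else 0) := by
      funext j
      simp only [map_smul, smul_eq_mul, ex_mul_left]
      have := a6 κ hκ (φ j)
      simp only [hBapp] at this
      erw [this]
      split_ifs <;> first | omega | ring
    rw [h2, lc_add_fun (fun _ => 1), hv] at h1
    have h3 := abs_ex_le (fun i => (w i κ).toLinearMap
      (Finsupp.linearCombination ℝ (fun j => (1 / 2 : ℝ) • m i (φ j)) v))
    rw [h1, mul_zero, zero_add, abs_mul, abs_neg, abs_of_pos (by positivity)] at h3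
    refine h3.trans (ex_mono (fun i => ?_))
    have := (w i κ).le_opNorm (Finsupp.linearCombination ℝ (fun j => (1 / 2 : ℝ) • m i (φ j)) v)
    rw [Real.norm_eq_abs] at this
    exact this.trans (mul_le_of_le_one_left (norm_nonneg _) (a2 i κ))

theorem james_of_dual_tree {X : Type*} [NormedAddCommGroup X] [NormedSpace ℝ X] {ε : ℝ}
    (hε : 0 < ε) (h : ∀ n, ∃ f : StrongDual ℝ X, IsTree ε n f) : JamesFamily X (ε / 8) := by
  intro n
  obtain ⟨x, hx⟩ := h n
  let B : StrongDual ℝ X →ₗ[ℝ] X →ₗ[ℝ] ℝ :=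
    LinearMap.mk₂ ℝ (fun f x => f x) (fun _ _ _ => rfl) (fun _ _ _ => rfl)
      (fun _ _ _ => map_add _ _ _) (fun _ _ _ => map_smul _ _ _)
  have hBapp : ∀ f x, B f x = f x := fun _ _ => rfl
  obtain ⟨I, _, _, m, w, a1, a2, -, -, -, a6⟩ := biorth B (ε := ε) (fun g hg => by
    obtain ⟨u, hu1, hu2⟩ := g.exists_lt_apply_of_lt_opNorm (r := ε / 2) (by linarith)
    rw [Real.norm_eq_abs] at hu2
    have hu0 : g u ≠ 0 := by
      intro h0
      rw [h0, abs_zero] at hu2
      linarith
    refine ⟨(ε / 2 / g u) • u, ?_, ?_⟩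
    · rw [norm_smul, Real.norm_eq_abs, abs_div, abs_of_pos (by positivity : 0 < ε / 2)]
      have : ε / 2 / |g u| ≤ 1 := by rw [div_le_one (by positivity)]; linarith
      exact mul_le_one₀ this (norm_nonneg _) hu1.le
    · rw [hBapp, map_smul, smul_eq_mul]
      field_simp) n x hx
  refine ⟨I, inferInstance, inferInstance, w, a2, ?_⟩
  intro κ _ φ hφ v _
  have h1 := ex_comb (fun i => (m i (κ + 1)).toLinearMap) (fun i j => w i (φ j)) v
  have h2 : (fun j => ex (fun i => (m i (κ + 1)).toLinearMap (w i (φ j)))) =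
      fun j => (ε / 4) * (if φ j ≤ κ then 1 else 0) + 0 * 0 := by
    funext j
    have := a6 (φ j) (hφ j) (κ + 1)
    simp only [hBapp] at this
    erw [this]
    split_ifs <;> first | omega | ring
  rw [h2, lc_add_fun _ (fun _ => 0)] at h1
  have h3 := abs_ex_le (fun i => (m i (κ + 1)).toLinearMap
    (Finsupp.linearCombination ℝ (fun j => w i (φ j)) v))
  rw [h1, zero_mul, add_zero, abs_mul, abs_of_pos (by positivity)] at h3
  have h4 : ex (fun i => |(m i (κ + 1)).toLinearMap
      (Finsupp.linearCombination ℝ (fun j => w i (φ j)) v)|) ≤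
      ex (fun i => 2 * ‖Finsupp.linearCombination ℝ (fun j => w i (φ j)) v‖) := by
    refine ex_mono (fun i => ?_)
    have := (m i (κ + 1)).le_opNorm (Finsupp.linearCombination ℝ (fun j => w i (φ j)) v)
    rw [Real.norm_eq_abs] at this
    exact this.trans (mul_le_mul_of_nonneg_right (a1 i _) (norm_nonneg _))
  rw [ex_mul_left] at h4
  linarith

end

end Vale.Agent.P125
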