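import Mathlib

/-! Finite uniform probability: averages and probabilities over a finite type. -/

namespace Vale.Agent.P125

open Finset

noncomputable section

/-- Average of a real function over a finite type. -/
def ex {Ω : Type} [Fintype Ω] (f : Ω → ℝ) : ℝ := (∑ ω, f ω) / (Fintype.card Ω : ℝ)

open Classical in
/-- Indicator of a proposition. -/
def ind (P : Prop) : ℝ := if P then 1 else 0

/-- Probability of an event under the uniform distribution. -/
def pr {Ω : Type} [Fintype Ω] (A : Ω → Prop) : ℝ := ex (fun ω => ind (A ω))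

theorem ind_nonneg (P : Prop) : 0 ≤ ind P := by
  unfold ind; split_ifs <;> norm_num

theorem ind_le_one (P : Prop) : ind P ≤ 1 := by
  unfold ind; split_ifs <;> norm_num

theorem ind_pos {P : Prop} (h : P) : ind P = 1 := by
  unfold ind; simp [h]

theorem ind_neg {P : Prop} (h : ¬ P) : ind P = 0 := by
  unfold ind; simp [h]

theorem ind_mono {P Q : Prop} (h : P → Q) : ind P ≤ ind Q := by
  by_cases hP : P
  · rw [ind_pos hP, ind_pos (h hP)]
  · rw [ind_neg hP]; exact ind_nonneg Q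

theorem ind_not (P : Prop) : ind (¬ P) = 1 - ind P := by
  by_cases hP : P
  · rw [ind_pos hP, ind_neg (not_not.mpr hP)]; norm_num
  · rw [ind_neg hP, ind_pos hP]; norm_num

theorem ind_forall {ι : Type} [Fintype ι] (P : ι → Prop) : ind (∀ i, P i) = ∏ i, ind (P i) := by
  by_cases h : ∀ i, P i
  · rw [ind_pos h]
    symm
    exact Finset.prod_eq_one (fun i _ => ind_pos (h i))
  · rw [ind_neg h]
    push Not at h
    obtain ⟨i, hi⟩ := h
    symm
    exact Finset.prod_eq_zero (Finset.mem_univ i) (ind_neg hi)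

variable {Ω : Type} [Fintype Ω]

theorem card_pos' [Nonempty Ω] : (0 : ℝ) < (Fintype.card Ω : ℝ) := by
  exact_mod_cast Fintype.card_pos

theorem ex_mono {f g : Ω → ℝ} (h : ∀ ω, f ω ≤ g ω) : ex f ≤ ex g := by
  unfold ex
  exact div_le_div_of_nonneg_right (Finset.sum_le_sum (fun ω _ => h ω)) (Nat.cast_nonneg _)

theorem ex_add (f g : Ω → ℝ) : ex (fun ω => f ω + g ω) = ex f + ex g := by
  unfold ex
  rw [Finset.sum_add_distrib, add_div]

theorem ex_sub (f g : Ω → ℝ) : ex (fun ω => f ω - g ω) = ex f - ex g := by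
  unfold ex
  rw [Finset.sum_sub_distrib, sub_div]

theorem ex_const [Nonempty Ω] (c : ℝ) : ex (fun _ : Ω => c) = c := by
  unfold ex
  have := card_pos' (Ω := Ω)
  rw [Finset.sum_const, Finset.card_univ, nsmul_eq_mul]
  field_simp

theorem ex_mul_left (c : ℝ) (f : Ω → ℝ) : ex (fun ω => c * f ω) = c * ex f := by
  unfold ex
  rw [← Finset.mul_sum, mul_div_assoc]

theorem ex_sum {ι : Type} (s : Finset ι) (f : ι → Ω → ℝ) :
    ex (fun ω => ∑ i ∈ s, f i ω) = ∑ i ∈ s, ex (f i) := by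
  unfold ex
  rw [Finset.sum_comm, Finset.sum_div]

theorem ex_nonneg {f : Ω → ℝ} (h : ∀ ω, 0 ≤ f ω) : 0 ≤ ex f := by
  unfold ex
  exact div_nonneg (Finset.sum_nonneg (fun ω _ => h ω)) (Nat.cast_nonneg _)

theorem pr_nonneg (A : Ω → Prop) : 0 ≤ pr A := ex_nonneg (fun _ => ind_nonneg _)

theorem pr_le_one [Nonempty Ω] (A : Ω → Prop) : pr A ≤ 1 := by
  have := ex_mono (f := fun ω => ind (A ω)) (g := fun _ => 1) (fun ω => ind_le_one _)
  rwa [ex_const] at this

theorem pr_mono {A B : Ω → Prop} (h : ∀ ω, A ω → B ω) : pr A ≤ pr B :=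
  ex_mono (fun ω => ind_mono (h ω))

theorem pr_not [Nonempty Ω] (A : Ω → Prop) : pr (fun ω => ¬ A ω) = 1 - pr A := by
  unfold pr
  simp only [ind_not]
  rw [ex_sub, ex_const]

theorem pr_le_add {A B C : Ω → Prop} (h : ∀ ω, A ω → B ω ∨ C ω) : pr A ≤ pr B + pr C := by
  unfold pr
  rw [← ex_add]
  apply ex_mono
  intro ω
  by_cases hA : A ω
  · rw [ind_pos hA]
    rcases h ω hA with hB | hC
    · rw [ind_pos hB]; linarith [ind_nonneg (C ω)]
    · rw [ind_pos hC]; linarith [ind_nonneg (B ω)]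
  · rw [ind_neg hA]; linarith [ind_nonneg (B ω), ind_nonneg (C ω)]

theorem pr_le_sum {ι : Type} (s : Finset ι) {A : Ω → Prop} {B : ι → Ω → Prop}
    (h : ∀ ω, A ω → ∃ i ∈ s, B i ω) : pr A ≤ ∑ i ∈ s, pr (B i) := by
  unfold pr
  rw [← ex_sum]
  apply ex_mono
  intro ω
  by_cases hA : A ω
  · rw [ind_pos hA]
    obtain ⟨i, hi, hB⟩ := h ω hA
    have := Finset.single_le_sum (f := fun i => ind (B i ω)) (fun j _ => ind_nonneg _) hi
    rwa [ind_pos hB] at this
  · rw [ind_neg hA]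
    exact Finset.sum_nonneg (fun j _ => ind_nonneg _)

theorem exists_le_ex [Nonempty Ω] (f : Ω → ℝ) : ∃ ω, f ω ≤ ex f := by
  by_contra h
  push Not at h
  have h1 : ∑ _ω : Ω, ex f < ∑ ω, f ω :=
    Finset.sum_lt_sum_of_nonempty Finset.univ_nonempty (fun ω _ => h ω)
  rw [Finset.sum_const, Finset.card_univ, nsmul_eq_mul] at h1
  have hc := card_pos' (Ω := Ω)
  unfold ex at h1
  rw [mul_div_cancel₀ _ hc.ne'] at h1
  exact lt_irrefl _ h1

/-- Independence of coordinates. -/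
theorem ex_pi_prod {ι Λ : Type} [Fintype ι] [DecidableEq ι] [Fintype Λ] (f : ι → Λ → ℝ) :
    ex (fun ω : ι → Λ => ∏ j, f j (ω j)) = ∏ j, ex (f j) := by
  unfold ex
  rw [Finset.prod_div_distrib, Fintype.prod_sum, Finset.prod_const, Finset.card_univ,
    Fintype.card_fun]
  push_cast
  rfl

theorem ex_eval {ι Λ : Type} [Fintype ι] [DecidableEq ι] [Fintype Λ] [Nonempty Λ]
    (j : ι) (f : Λ → ℝ) : ex (fun ω : ι → Λ => f (ω j)) = ex f := by
  have h := ex_pi_prod (ι := ι) (fun i (l : Λ) => if i = j then f l else 1)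
  have h1 : ∀ ω : ι → Λ, ∏ i, (if i = j then f (ω i) else 1) = f (ω j) := by
    intro ω
    rw [Finset.prod_ite_eq' Finset.univ j (fun i => f (ω i))]
    simp
  have h2 : ∏ i : ι, ex (fun l : Λ => if i = j then f l else 1) = ex f := by
    have : ∀ i : ι, ex (fun l : Λ => if i = j then f l else 1) = if i = j then ex f else 1 := by
      intro i
      by_cases hi : i = j
      · simp [hi]
      · simp only [hi, if_false]; exact ex_const 1
    simp only [this]
    rw [Finset.prod_ite_eq' Finset.univ j (fun _ => ex f)]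
    simp
  simp only [h1] at h
  rw [h, h2]

theorem pr_eval {ι Λ : Type} [Fintype ι] [DecidableEq ι] [Fintype Λ] [Nonempty Λ]
    (j : ι) (A : Λ → Prop) : pr (fun ω : ι → Λ => A (ω j)) = pr A :=
  ex_eval j (fun l => ind (A l))

theorem pr_pi {ι Λ : Type} [Fintype ι] [DecidableEq ι] [Fintype Λ] (A : ι → Λ → Prop) :
    pr (fun ω : ι → Λ => ∀ j, A j (ω j)) = ∏ j, pr (A j) := by
  unfold pr
  simp only [ind_forall]
  exact ex_pi_prod (fun j l => ind (A j l))

/-- Independence of distinct coordinates. -/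
theorem pr_pi_inj {ι κ Λ : Type} [Fintype ι] [DecidableEq ι] [Fintype κ] [Fintype Λ]
    [Nonempty Λ] (φ : κ → ι) (hφ : Function.Injective φ) (A : κ → Λ → Prop) :
    pr (fun ω : ι → Λ => ∀ k, A k (ω (φ k))) ≤ ∏ k, pr (A k) := by
  classical
  let B : ι → Λ → Prop := fun j l => ∀ k, φ k = j → A k l
  have h1 : pr (fun ω : ι → Λ => ∀ k, A k (ω (φ k))) ≤ pr (fun ω : ι → Λ => ∀ j, B j (ω j)) := by
    apply pr_mono
    intro ω h j k hk
    rw [← hk]; exact h k
  rw [pr_pi] at h1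
  refine h1.trans ?_
  have h2 : ∏ j, pr (B j) ≤ ∏ j ∈ Finset.univ.image φ, pr (B j) := by
    apply Finset.prod_le_prod_of_subset_of_le_one (Finset.subset_univ _)
    · intro j _; exact pr_nonneg _
    · intro j _ _; exact pr_le_one _
  refine h2.trans ?_
  rw [Finset.prod_image (fun a _ b _ hab => hφ hab)]
  apply Finset.prod_le_prod
  · intro k _; exact pr_nonneg _
  · intro k _
    apply pr_mono
    intro l hl
    exact hl k rfl

/-- Average over a fair coin choosing between two independent samples. -/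
theorem ex_coin {Ω₁ Ω₂ : Type} [Fintype Ω₁] [Fintype Ω₂] [Nonempty Ω₁] [Nonempty Ω₂]
    (f : Ω₁ → ℝ) (g : Ω₂ → ℝ) :
    ex (fun l : Bool × Ω₁ × Ω₂ => if l.1 then f l.2.1 else g l.2.2) = (ex f + ex g) / 2 := by
  unfold ex
  have h1 := card_pos' (Ω := Ω₁)
  have h2 := card_pos' (Ω := Ω₂)
  simp only [Fintype.sum_prod_type, Fintype.sum_bool, Fintype.card_prod, Fintype.card_bool,
    if_true, Bool.false_eq_true, if_false, Finset.sum_const, Finset.card_univ, nsmul_eq_mul]
  rw [← Finset.mul_sum]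
  push_cast
  field_simp

theorem pr_coin {Ω₁ Ω₂ : Type} [Fintype Ω₁] [Fintype Ω₂] [Nonempty Ω₁] [Nonempty Ω₂]
    (A : Ω₁ → Prop) (B : Ω₂ → Prop) :
    pr (fun l : Bool × Ω₁ × Ω₂ => (l.1 = true ∧ A l.2.1) ∨ (l.1 = false ∧ B l.2.2))
      = (pr A + pr B) / 2 := by
  unfold pr
  rw [← ex_coin]
  congr 1
  funext l
  rcases l with ⟨c, a, b⟩
  cases c <;> simp

theorem pr_false : pr (fun _ : Ω => False) = 0 := by
  unfold pr ex
  simp [ind_neg]

theorem pr_fin_zero (R : ℕ) [NeZero R] : pr (fun l : Fin R => l = 0) = 1 / R := by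
  unfold pr ex
  rw [Fintype.card_fin]
  congr 1
  rw [Finset.sum_eq_single 0]
  · exact ind_pos rfl
  · intro b _ hb; exact ind_neg hb
  · intro h; exact absurd (Finset.mem_univ _) h

theorem ex_equiv {Ω' : Type} [Fintype Ω'] (e : Ω ≃ Ω') (f : Ω' → ℝ) :
    ex (fun ω => f (e ω)) = ex f := by
  unfold ex
  rw [Fintype.card_congr e, Equiv.sum_comp e f]

theorem ex_prod {Ω' : Type} [Fintype Ω'] (f : Ω × Ω' → ℝ) :
    ex f = ex (fun a => ex (fun b => f (a, b))) := by
  unfold ex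
  rw [Fintype.sum_prod_type, Fintype.card_prod, ← Finset.sum_div, div_div]
  push_cast
  rw [mul_comm]

theorem ex_comm {Ω' : Type} [Fintype Ω'] (f : Ω → Ω' → ℝ) :
    ex (fun a => ex (fun b => f a b)) = ex (fun b => ex (fun a => f a b)) := by
  unfold ex
  rw [← Finset.sum_div, ← Finset.sum_div, Finset.sum_comm, div_div, div_div, mul_comm]

theorem ex_mul_right (c : ℝ) (f : Ω → ℝ) : ex (fun ω => f ω * c) = ex f * c := by
  simp only [mul_comm _ c, ex_mul_left]

theorem ex_congr {f g : Ω → ℝ} (h : ∀ ω, f ω = g ω) : ex f = ex g := by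
  rw [funext h]

theorem ex_fst {Ω' : Type} [Fintype Ω'] [Nonempty Ω'] (f : Ω → ℝ) :
    ex (fun q : Ω × Ω' => f q.1) = ex f := by
  rw [ex_prod]
  exact ex_congr (fun a => ex_const (f a))

theorem ex_snd {Ω' : Type} [Fintype Ω'] [Nonempty Ω] (f : Ω' → ℝ) :
    ex (fun q : Ω × Ω' => f q.2) = ex f := by
  rw [ex_prod]
  exact ex_const (ex f)

theorem pr_equiv {Ω' : Type} [Fintype Ω'] (e : Ω ≃ Ω') (A : Ω' → Prop) :
    pr (fun ω => A (e ω)) = pr A := ex_equiv e (fun ω => ind (A ω))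

theorem pr_fst {Ω' : Type} [Fintype Ω'] [Nonempty Ω'] (A : Ω → Prop) :
    pr (fun q : Ω × Ω' => A q.1) = pr A := ex_fst (fun ω => ind (A ω))

theorem pr_snd {Ω' : Type} [Fintype Ω'] [Nonempty Ω] (A : Ω' → Prop) :
    pr (fun q : Ω × Ω' => A q.2) = pr A := ex_snd (fun ω => ind (A ω))

theorem pr_eq_card (A : Ω → Prop) [DecidablePred A] :
    pr A = ((Finset.univ.filter A).card : ℝ) / Fintype.card Ω := by
  unfold pr ex
  congr 1
  rw [Finset.card_filter]
  push_cast
  refine Finset.sum_congr rfl (fun ω _ => ?_)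
  by_cases h : A ω
  · rw [ind_pos h, if_pos h]
  · rw [ind_neg h, if_neg h]

theorem abs_ex_le (f : Ω → ℝ) : |ex f| ≤ ex (fun ω => |f ω|) := by
  unfold ex
  rw [abs_div, Nat.abs_cast]
  exact div_le_div_of_nonneg_right (Finset.abs_sum_le_sum_abs _ _) (Nat.cast_nonneg _)

theorem ex_rpow_le [Nonempty Ω] {p : ℝ} (hp : 1 ≤ p) (f : Ω → ℝ) (hf : ∀ ω, 0 ≤ f ω) :
    (ex f) ^ p ≤ ex (fun ω => f ω ^ p) := by
  have hc := card_pos' (Ω := Ω)
  have h := Real.rpow_arith_mean_le_arith_mean_rpow Finset.univ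
    (fun _ : Ω => 1 / (Fintype.card Ω : ℝ)) f (fun _ _ => by positivity)
    (by rw [Finset.sum_const, Finset.card_univ, nsmul_eq_mul]; field_simp) (fun ω _ => hf ω) hp
  unfold ex
  rw [← Finset.mul_sum, ← Finset.mul_sum] at h
  rw [div_eq_inv_mul, div_eq_inv_mul, ← one_div]
  exact h

theorem tendsto_ex {ι : Type} {F : Filter ι} {f : ι → Ω → ℝ} {g : Ω → ℝ}
    (h : ∀ ω, Filter.Tendsto (fun i => f i ω) F (nhds (g ω))) :
    Filter.Tendsto (fun i => ex (f i)) F (nhds (ex g)) := by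
  unfold ex
  exact (tendsto_finsetSum _ (fun ω _ => h ω)).div_const _

end

end Vale.Agent.P125
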