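import Vale.Agent.P125.Defs
import Vale.Agent.P125.Prob

/-! Random walks driven by involutions and the cocycle form of Markov type. -/

namespace Vale.Agent.P125

open Finset

noncomputable section

/-- Position after `r` steps of the word `w` started at `s`. -/
def pos {Ω G : Type} (τ : G → Ω → Ω) (w : ℕ → G) (s : Ω) : ℕ → Ω
  | 0 => s
  | r + 1 => τ (w r) (pos τ w s r)

/-- Extension of a finite word. -/
def ext {G : Type} [Nonempty G] {t : ℕ} (w : Fin t → G) : ℕ → G :=
  fun r => if h : r < t then w ⟨r, h⟩ else Classical.arbitrary G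

theorem pos_succ' {Ω G : Type} (τ : G → Ω → Ω) (w : ℕ → G) (s : Ω) (r : ℕ) :
    pos τ w s (r + 1) = pos τ (fun n => w (n + 1)) (τ (w 0) s) r := by
  induction r with
  | zero => rfl
  | succ r ih =>
    show τ (w (r + 1)) (pos τ w s (r + 1)) = τ (w (r + 1)) (pos τ (fun n => w (n + 1)) _ r)
    rw [ih]

theorem ext_cons_succ {G : Type} [Nonempty G] {t : ℕ} (g : G) (w : Fin t → G) :
    (fun n => ext (Fin.cons g w : Fin (t + 1) → G) (n + 1)) = ext w := by
  funext n
  unfold ext
  by_cases h : n < t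
  · rw [dif_pos h, dif_pos (Nat.succ_lt_succ h)]
    rfl
  · rw [dif_neg h, dif_neg (fun h' => h (Nat.lt_of_succ_lt_succ h'))]

theorem ext_cons_zero {G : Type} [Nonempty G] {t : ℕ} (g : G) (w : Fin t → G) :
    ext (Fin.cons g w : Fin (t + 1) → G) 0 = g := by
  unfold ext
  rw [dif_pos (Nat.succ_pos t)]
  rfl

theorem pos_bijective {Ω G : Type} (τ : G → Ω → Ω) (hτ : ∀ g s, τ g (τ g s) = s) (w : ℕ → G)
    (r : ℕ) : Function.Bijective (fun s => pos τ w s r) := by
  induction r with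
  | zero => exact Function.bijective_id
  | succ r ih =>
    exact (Function.Involutive.bijective (hτ (w r))).comp ih

/-- The cocycle form of Markov type for a function `ρ` (to be thought of as `‖·‖^p`). -/
def CMT {V : Type*} [AddCommGroup V] (ρ : V → ℝ) (C : ℝ) : Prop :=
  ∀ (Ω G : Type) [Fintype Ω] [Nonempty Ω] [Fintype G] [Nonempty G] (τ : G → Ω → Ω)
    (_ : ∀ g s, τ g (τ g s) = s) (c : G → Ω → V) (_ : ∀ g s, c g (τ g s) = - c g s)
    (t : ℕ) (_ : 1 ≤ t),
    ex (fun s => ex (fun w : Fin t → G =>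
      ρ (∑ r ∈ range t, c (ext w r) (pos τ (ext w) s r)))) ≤
    C * t * ex (fun s => ex (fun g => ρ (c g s)))

section chain

variable {Ω G : Type} [Fintype Ω] [DecidableEq Ω] [Fintype G] [Nonempty G]

/-- Transition matrix of the walk. -/
def trans (τ : G → Ω → Ω) : Matrix Ω Ω ℝ := fun i j => ex (fun g => ind (τ g i = j))

omit [DecidableEq Ω] [Nonempty G] in
theorem trans_apply (τ : G → Ω → Ω) (i : Ω) (φ : Ω → ℝ) :
    ∑ j, trans τ i j * φ j = ex (fun g => φ (τ g i)) := by
  unfold trans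
  simp only [← ex_mul_right]
  rw [← ex_sum]
  refine ex_congr (fun g => ?_)
  rw [Finset.sum_eq_single (τ g i)]
  · rw [ind_pos rfl, one_mul]
  · intro b _ hb
    rw [ind_neg (fun h => hb h.symm), zero_mul]
  · intro h; exact absurd (Finset.mem_univ _) h

theorem trans_pow_apply (τ : G → Ω → Ω) (t : ℕ) : ∀ (i : Ω) (φ : Ω → ℝ),
    ∑ j, (trans τ ^ t) i j * φ j = ex (fun w : Fin t → G => φ (pos τ (ext w) i t)) := by
  induction t with
  | zero =>
    intro i φ
    rw [pow_zero]
    simp only [pos]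
    rw [ex_const, Finset.sum_eq_single i]
    · simp
    · intro b _ hb
      rw [Matrix.one_apply_ne (fun h => hb h.symm), zero_mul]
    · intro h; exact absurd (Finset.mem_univ _) h
  | succ t ih =>
    intro i φ
    rw [pow_succ']
    simp only [Matrix.mul_apply, Finset.sum_mul, mul_assoc]
    rw [Finset.sum_comm]
    simp only [← Finset.mul_sum, ih]
    rw [trans_apply τ i (fun k => ex (fun w : Fin t → G => φ (pos τ (ext w) k t)))]
    rw [← ex_equiv (Fin.consEquiv (fun _ : Fin (t + 1) => G)), ex_prod]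
    refine ex_congr (fun g => ex_congr (fun w => ?_))
    show _ = φ (pos τ (ext (Fin.cons g w : Fin (t + 1) → G)) i (t + 1))
    rw [pos_succ', ext_cons_succ, ext_cons_zero]

theorem walk_markov {X : Type*} [NormedAddCommGroup X] {p K : ℝ} [Nonempty Ω]
    (hK : ∀ (S : Type) [Fintype S] [DecidableEq S] (P : Matrix S S ℝ) (π : S → ℝ),
    (∀ i j, 0 ≤ P i j) → (∀ i, ∑ j, P i j = 1) →
    (∀ i, 0 ≤ π i) → (∑ i, π i = 1) →
    (∀ i j, π i * P i j = π j * P j i) →
    ∀ (f : S → X) (t : ℕ), 1 ≤ t →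
      ∑ i, ∑ j, π i * (P ^ t) i j * ‖f j - f i‖ ^ p ≤
        K ^ p * t * ∑ i, ∑ j, π i * P i j * ‖f j - f i‖ ^ p)
    (τ : G → Ω → Ω) (hτ : ∀ g s, τ g (τ g s) = s) (f : Ω → X) (t : ℕ) (ht : 1 ≤ t) :
    ex (fun s => ex (fun w : Fin t → G => ‖f (pos τ (ext w) s t) - f s‖ ^ p)) ≤
      K ^ p * t * ex (fun s => ex (fun g => ‖f (τ g s) - f s‖ ^ p)) := by
  have hc := card_pos' (Ω := Ω)
  have h := hK Ω (trans τ) (fun _ => 1 / (Fintype.card Ω : ℝ))
    (fun i j => ex_nonneg (fun g => ind_nonneg _))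
    (fun i => by
      have := trans_apply τ i (fun _ => 1)
      simp only [mul_one] at this
      rw [this, ex_const])
    (fun _ => by positivity)
    (by rw [Finset.sum_const, Finset.card_univ, nsmul_eq_mul]; field_simp)
    (fun i j => by
      congr 1
      unfold trans
      refine ex_congr (fun g => ?_)
      congr 1
      apply propext
      constructor
      · intro h; rw [← h, hτ]
      · intro h; rw [← h, hτ]) f t ht
  simp only [mul_assoc, ← Finset.mul_sum] at h
  simp only [trans_pow_apply τ t _ (fun j => ‖f j - f _‖ ^ p),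
    trans_apply τ _ (fun j => ‖f j - f _‖ ^ p)] at h
  have e1 : ∀ F : Ω → ℝ, 1 / (Fintype.card Ω : ℝ) * ∑ i, F i = ex F := by
    intro F; unfold ex; ring
  rw [e1, e1] at h
  rw [mul_assoc]
  exact h

end chain

theorem pr_fin_edge (M t : ℕ) [NeZero M] :
    pr (fun v : Fin M => (v : ℕ) < t ∨ M ≤ v + t) ≤ 2 * t / M := by
  classical
  rw [pr_eq_card, Fintype.card_fin]
  have hM : (0 : ℝ) < M := by exact_mod_cast Nat.pos_of_ne_zero (NeZero.ne M)
  apply div_le_div_of_nonneg_right _ hM.le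
  have h : (Finset.univ.filter (fun v : Fin M => (v : ℕ) < t ∨ M ≤ v + t)).card ≤
      (range t ∪ Ico (M - t) M).card := by
    apply Finset.card_le_card_of_injOn (fun v : Fin M => (v : ℕ))
    · intro v hv
      simp only [coe_filter, mem_univ, true_and, Set.mem_ofPred_eq] at hv
      simp only [coe_union, coe_range, coe_Ico, Set.mem_union, Set.mem_Iio, Set.mem_Ico]
      have := v.2
      omega
    · intro a _ b _ hab
      exact Fin.ext hab
  have h2 : (range t ∪ Ico (M - t) M).card ≤ 2 * t := by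
    refine (Finset.card_union_le _ _).trans ?_
    rw [Finset.card_range, Nat.card_Ico]
    omega
  exact_mod_cast h.trans h2

section box

variable {Ω G : Type}

open Classical in
/-- Change of the counters when the dart `(g, s)` is crossed. -/
def stp (τ : G → Ω → Ω) (g : G) (s : Ω) : G × Ω → ℤ :=
  fun e => (if e = (g, s) then 1 else 0) - (if e = (g, τ g s) then 1 else 0)

theorem stp_inv (τ : G → Ω → Ω) (hτ : ∀ g s, τ g (τ g s) = s) (g : G) (s : Ω) (e : G × Ω) :
    stp τ g (τ g s) e = - stp τ g s e := by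
  unfold stp
  rw [hτ]; ring

theorem abs_stp_le (τ : G → Ω → Ω) (g : G) (s : Ω) (e : G × Ω) : |stp τ g s e| ≤ 1 := by
  unfold stp
  split_ifs <;> simp

open Classical in
/-- The lifted walk on states with counters. -/
def lift (M : ℕ) (τ : G → Ω → Ω) (g : G) (q : Ω × (G × Ω → Fin M)) : Ω × (G × Ω → Fin M) :=
  if h : ∃ v' : G × Ω → Fin M, ∀ e, ((v' e : ℕ) : ℤ) = ((q.2 e : ℕ) : ℤ) + stp τ g q.1 e then
    (τ g q.1, h.choose) else q

theorem lift_cases (M : ℕ) (τ : G → Ω → Ω) (g : G) (q : Ω × (G × Ω → Fin M)) :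
    ((lift M τ g q).1 = τ g q.1 ∧
      ∀ e, (((lift M τ g q).2 e : ℕ) : ℤ) = ((q.2 e : ℕ) : ℤ) + stp τ g q.1 e) ∨
    (lift M τ g q = q ∧ ¬ ∃ v' : G × Ω → Fin M,
      ∀ e, ((v' e : ℕ) : ℤ) = ((q.2 e : ℕ) : ℤ) + stp τ g q.1 e) := by
  unfold lift
  split_ifs with h
  · exact Or.inl ⟨rfl, h.choose_spec⟩
  · exact Or.inr ⟨rfl, h⟩

theorem lift_inv (M : ℕ) (τ : G → Ω → Ω) (hτ : ∀ g s, τ g (τ g s) = s) (g : G)
    (q : Ω × (G × Ω → Fin M)) : lift M τ g (lift M τ g q) = q := by
  rcases lift_cases M τ g q with ⟨h1, h2⟩ | ⟨h1, _⟩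
  · rcases lift_cases M τ g (lift M τ g q) with ⟨h3, h4⟩ | ⟨_, h4⟩
    · apply Prod.ext
      · rw [h3, h1, hτ]
      · funext e
        have := h4 e
        rw [h2 e, h1, stp_inv τ hτ] at this
        apply Fin.ext
        omega
    · exfalso
      apply h4
      refine ⟨q.2, fun e => ?_⟩
      rw [h2 e, h1, stp_inv τ hτ]; ring
  · rw [h1, h1]

variable [Fintype Ω] [Fintype G] {X : Type*} [NormedAddCommGroup X] [NormedSpace ℝ X]

/-- The function on the lifted space whose increments are the cocycle. -/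
def potential (M : ℕ) (c : G → Ω → X) (q : Ω × (G × Ω → Fin M)) : X :=
  (1 / 2 : ℝ) • ∑ e : G × Ω, (((q.2 e : ℕ) : ℤ) : ℝ) • c e.1 e.2

theorem potential_step (M : ℕ) (τ : G → Ω → Ω) (c : G → Ω → X)
    (hc : ∀ g s, c g (τ g s) = - c g s) (g : G) (q q' : Ω × (G × Ω → Fin M))
    (h : ∀ e, ((q'.2 e : ℕ) : ℤ) = ((q.2 e : ℕ) : ℤ) + stp τ g q.1 e) :
    potential M c q' - potential M c q = c g q.1 := by
  classical
  unfold potential
  rw [← smul_sub, ← Finset.sum_sub_distrib]
  have : ∀ e : G × Ω, (((q'.2 e : ℕ) : ℤ) : ℝ) • c e.1 e.2 - (((q.2 e : ℕ) : ℤ) : ℝ) • c e.1 e.2 =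
      (if e = (g, q.1) then c e.1 e.2 else 0) - (if e = (g, τ g q.1) then c e.1 e.2 else 0) := by
    intro e
    rw [h e, ← sub_smul]
    unfold stp
    split_ifs <;> simp
  simp only [this]
  rw [Finset.sum_sub_distrib, Finset.sum_ite_eq' Finset.univ, Finset.sum_ite_eq' Finset.univ]
  simp only [Finset.mem_univ, if_true]
  rw [hc, sub_neg_eq_add, ← two_smul ℝ, smul_smul]
  norm_num

theorem lift_path (M t : ℕ) (τ : G → Ω → Ω) (c : G → Ω → X)
    (hc : ∀ g s, c g (τ g s) = - c g s) (w : ℕ → G) (s : Ω) (v : G × Ω → Fin M)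
    (hv : ∀ e, t ≤ (v e : ℕ) ∧ (v e : ℕ) + t < M) (r : ℕ) (hr : r ≤ t) :
    (pos (lift M τ) w (s, v) r).1 = pos τ w s r ∧
    (∀ e, |(((pos (lift M τ) w (s, v) r).2 e : ℕ) : ℤ) - ((v e : ℕ) : ℤ)| ≤ r) ∧
    potential M c (pos (lift M τ) w (s, v) r) - potential M c (s, v) =
      ∑ n ∈ range r, c (w n) (pos τ w s n) := by
  induction r with
  | zero => simp [pos]
  | succ r ih =>
    obtain ⟨h1, h2, h3⟩ := ih (by omega)
    simp only [pos]
    set q := pos (lift M τ) w (s, v) r with hq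
    rcases lift_cases M τ (w r) q with ⟨h4, h5⟩ | ⟨_, h5⟩
    · refine ⟨by rw [h4, h1], fun e => ?_, ?_⟩
      · have a1 := h2 e
        have a2 := abs_stp_le τ (w r) q.1 e
        rw [h5 e]
        rw [abs_le] at a1 a2 ⊢
        push_cast
        constructor <;> linarith [a1.1, a1.2, a2.1, a2.2]
      · rw [Finset.sum_range_succ, ← h3, ← h1, ← potential_step M τ c hc (w r) q _ h5]
        abel
    · exfalso
      apply h5
      have hb : ∀ e, 0 ≤ ((q.2 e : ℕ) : ℤ) + stp τ (w r) q.1 e ∧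
          ((q.2 e : ℕ) : ℤ) + stp τ (w r) q.1 e < M := by
        intro e
        have a1 := h2 e
        have a2 := abs_stp_le τ (w r) q.1 e
        have a3 := hv e
        rw [abs_le] at a1 a2
        omega
      refine ⟨fun e => ⟨(((q.2 e : ℕ) : ℤ) + stp τ (w r) q.1 e).toNat, ?_⟩, fun e => ?_⟩
      · have := hb e
        omega
      · have := hb e
        simp only
        omega

end box

theorem cmt_of_markov {X : Type*} [NormedAddCommGroup X] [NormedSpace ℝ X] {p : ℝ} (hp : 0 < p)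
    (h : HasMarkovType X p) : ∃ C : ℝ, 0 ≤ C ∧ CMT (fun x : X => ‖x‖ ^ p) C := by
  classical
  obtain ⟨K, hK⟩ := h
  refine ⟨2 * |K ^ p|, by positivity, ?_⟩
  intro Ω G _ _ _ _ τ hτ c hc t ht
  set M : ℕ := 4 * t * Fintype.card (G × Ω) + 1 with hM
  have : NeZero M := ⟨by omega⟩
  have hmain := walk_markov hK (lift M τ) (lift_inv M τ hτ) (potential M c) t ht
  set L := ex (fun s => ex (fun w : Fin t → G =>
      ‖∑ r ∈ range t, c (ext w r) (pos τ (ext w) s r)‖ ^ p)) with hL
  set R := ex (fun s => ex (fun g => ‖c g s‖ ^ p)) with hR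
  have hL0 : 0 ≤ L := ex_nonneg (fun s => ex_nonneg (fun w => by positivity))
  -- upper bound for the one-step term
  have hup : ex (fun q => ex (fun g => ‖potential M c (lift M τ g q) - potential M c q‖ ^ p)) ≤ R := by
    rw [hR, ← ex_fst (Ω' := G × Ω → Fin M) (fun s => ex (fun g => ‖c g s‖ ^ p))]
    refine ex_mono (fun q => ex_mono (fun g => ?_))
    rcases lift_cases M τ g q with ⟨_, h5⟩ | ⟨h4, _⟩
    · rw [potential_step M τ c hc g q _ h5]
    · rw [h4, sub_self, norm_zero, Real.zero_rpow hp.ne']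
      positivity
  have hup0 : 0 ≤ ex (fun q => ex (fun g =>
      ‖potential M c (lift M τ g q) - potential M c q‖ ^ p)) :=
    ex_nonneg (fun s => ex_nonneg (fun w => by positivity))
  -- probability that the counters are far from the boundary
  have hin : 1 / 2 ≤ pr (fun v : G × Ω → Fin M => ∀ e, t ≤ (v e : ℕ) ∧ (v e : ℕ) + t < M) := by
    have h1 : pr (fun v : G × Ω → Fin M => ¬ ∀ e, t ≤ (v e : ℕ) ∧ (v e : ℕ) + t < M) ≤
        ∑ e : G × Ω, pr (fun v : G × Ω → Fin M => (v e : ℕ) < t ∨ M ≤ v e + t) := by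
      apply pr_le_sum
      intro v hv
      push Not at hv
      obtain ⟨e, he⟩ := hv
      refine ⟨e, Finset.mem_univ _, ?_⟩
      by_cases h : t ≤ (v e : ℕ)
      · exact Or.inr (he h)
      · exact Or.inl (by omega)
    have h2 : ∀ e : G × Ω, pr (fun v : G × Ω → Fin M => (v e : ℕ) < t ∨ M ≤ v e + t) ≤
        2 * t / M := by
      intro e
      rw [pr_eval e (fun u : Fin M => (u : ℕ) < t ∨ M ≤ u + t)]
      exact pr_fin_edge M t
    have h3 := h1.trans (Finset.sum_le_sum (fun e _ => h2 e))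
    rw [pr_not, Finset.sum_const, Finset.card_univ, nsmul_eq_mul] at h3
    have hM' : (M : ℝ) = 4 * t * Fintype.card (G × Ω) + 1 := by rw [hM]; push_cast; ring
    have hMpos : (0 : ℝ) < M := by rw [hM']; positivity
    have h4 : (Fintype.card (G × Ω) : ℝ) * (2 * t / M) ≤ 1 / 2 := by
      rw [← mul_div_assoc, div_le_iff₀ hMpos, hM']
      nlinarith
    linarith
  have hlow : L / 2 ≤ ex (fun q => ex (fun w : Fin t → G =>
      ‖potential M c (pos (lift M τ) (ext w) q t) - potential M c q‖ ^ p)) := by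
    rw [ex_prod, ex_comm]
    have : ∀ v : G × Ω → Fin M, ind (∀ e, t ≤ (v e : ℕ) ∧ (v e : ℕ) + t < M) * L ≤
        ex (fun s => ex (fun w : Fin t → G =>
          ‖potential M c (pos (lift M τ) (ext w) (s, v) t) - potential M c (s, v)‖ ^ p)) := by
      intro v
      by_cases hv : ∀ e, t ≤ (v e : ℕ) ∧ (v e : ℕ) + t < M
      · rw [ind_pos hv, one_mul, hL]
        refine le_of_eq (ex_congr (fun s => ex_congr (fun w => ?_)))
        rw [(lift_path M t τ c hc (ext w) s v hv t le_rfl).2.2]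
      · rw [ind_neg hv, zero_mul]
        exact ex_nonneg (fun s => ex_nonneg (fun w => by positivity))
    refine le_trans ?_ (ex_mono this)
    rw [ex_mul_right]
    have := mul_le_mul_of_nonneg_right hin hL0
    unfold pr at this
    linarith
  have ht0 : (0 : ℝ) ≤ t := Nat.cast_nonneg t
  have h5 : K ^ p * t * ex (fun q => ex (fun g =>
      ‖potential M c (lift M τ g q) - potential M c q‖ ^ p)) ≤ |K ^ p| * t * R := by
    refine le_trans (mul_le_mul_of_nonneg_right
      (mul_le_mul_of_nonneg_right (le_abs_self _) ht0) hup0) ?_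
    exact mul_le_mul_of_nonneg_left hup (by positivity)
  have := hlow.trans (hmain.trans h5)
  show L ≤ 2 * |K ^ p| * t * R
  linarith

end

end Vale.Agent.P125
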